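import Vale.Agent.P233.H671.Blk3b
import Vale.Agent.P233.N2.H994.RK8
import Vale.Agent.P233.N2.H994.RK9
import Vale.Agent.P233.H715.TestI

/-!
P242, A-LIB (helper992): the library facts of P233 for a space with `CD.Hyp m n K`
(`CD(K,n)`, quadratic Cheeger energy, `m = ℋⁿ`, full support), collected in one file.
-/

set_option linter.all false

open MeasureTheory Filter Topology Set
open scoped ENNReal NNReal MeasureTheory

universe u

namespace Vale.Agent.P242.H992

open Vale.Agent.P233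
open Vale.Agent.P233.RA (gg ww cc BSup Q)

variable {M : Type u} [MetricSpace M] [CompleteSpace M] [SecondCountableTopology M]
  [MeasurableSpace M] [BorelSpace M] {m : Measure M} {n : ℕ} {K : ℝ} {θ : M → ℝ}

/-! ### The hypotheses of the library -/

/-- proper, geodesic, Bishop-Gromov, Ahlfors regular, doubling, growth -/
theorem geoN (h : CD.Hyp m n K) : RG.GeoN m n := (H866.CDVol.blk_Vol M m n K h).1

theorem th (h : CD.Hyp m n K) : ∃ θ : M → ℝ, CD.Th m n θ := (H866.CDVol.blk_Vol M m n K h).2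

theorem os (h : CD.Hyp m n K) : H227.Ch.OS m n K := CD.os_of_hyp h (geoN h)

theorem quadr (h : CD.Hyp m n K) : RG.Quadr m := CD.quadr_of h.rcd

theorem lc_wgrad (h : CD.Hyp m n K) : RG.LC m n K ∧ CD.WGrad m :=
  H227.Ch.blk_Lc M m n K h.two_le (geoN h) (quadr h) (os h)

theorem s2l (h : CD.Hyp m n K) : RG.S2L m := H790.SD.blk_S2l M m n K h.two_le (geoN h) (os h)

/-- Theorem N: the hypotheses -/
theorem nsp2 (h : CD.Hyp m n K) : ∃ θ : M → ℝ, N2.NSp2 m n K θ := by
  obtain ⟨θ, t⟩ := th h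
  exact ⟨θ, N2.nsp2_of h.two_le (geoN h) t (quadr h) (s2l h) (lc_wgrad h).1 (lc_wgrad h).2⟩

theorem nsp (h : CD.Hyp m n K) : ∃ θ : M → ℝ, N2.RA.NSp m n K θ := by
  obtain ⟨θ, t⟩ := nsp2 h
  exact ⟨θ, N2.H883.toR t⟩

/-- the Bakry-Émery inequality, weak form -/
theorem be_of_nsp2 (h : N2.NSp2 m n K θ) : (sob m).BE K n :=
  N2.H883.partN2_of N2.S4.blk_S4 N2.RA.blk_KA2 N2.RA.blk_KA3 M m n K θ h

theorem be (h : CD.Hyp m n K) : (sob m).BE K n := by
  obtain ⟨θ, t⟩ := nsp2 h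
  exact be_of_nsp2 t

theorem std_of_nsp2 (h : N2.NSp2 m n K θ) : Std m K n where
  full := h.full
  hN := by exact_mod_cast h.n_pos
  rcd :=
    { quadratic := h.quadratic
      growth := H131.Z.growth_sq h.growth
      sobolev_to_lipschitz := h.s2l
      bochner := be_of_nsp2 h }
  hfin := h.fin

theorem std (h : CD.Hyp m n K) : Std m K n := by
  obtain ⟨θ, t⟩ := nsp2 h
  exact std_of_nsp2 t

theorem heat (h : CD.Hyp m n K) : Heat (sob m) K (sob m).P := by
  obtain ⟨θ, t⟩ := nsp2 h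
  have : SigmaFinite m := sigmaFinite_of_ball t.fin
  exact H715.heat_exists t.isGamma (by exact_mod_cast t.n_pos) (be_of_nsp2 t)

end Vale.Agent.P242.H992

namespace Vale.Agent.P242.H992

open Vale.Agent.P233
open Vale.Agent.P233.RA (gg ww cc BSup Q)

variable {M : Type u} [MetricSpace M] [MeasurableSpace M] [BorelSpace M] {m : Measure M} {n : ℕ}
  {K δ : ℝ} {θ : M → ℝ}

/-! ### The right-hand side of the Laplacian comparison -/

open Classical in
/-- `a_y = (n - (2K/3) g_y) 1_{g_y < δ}` -/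
noncomputable def aa (n : ℕ) (K δ : ℝ) (y x : M) : ℝ :=
  if gg y x < δ then (n : ℝ) - 2 * K / 3 * gg y x else 0

theorem aa_of_lt {y x : M} (h : gg y x < δ) : aa n K δ y x = n - 2 * K / 3 * gg y x := if_pos h

theorem aa_of_ge {y x : M} (h : δ ≤ gg y x) : aa n K δ y x = 0 := if_neg (not_lt.2 h)

theorem aa_eq_indicator (n : ℕ) (K δ : ℝ) (y : M) :
    aa n K δ y = Set.indicator {x | gg y x < δ} (fun x => (n : ℝ) - 2 * K / 3 * gg y x) := by
  classical
  funext x
  simp only [aa, Set.indicator_apply, mem_setOf_eq]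

theorem aa_measurable (n : ℕ) (K δ : ℝ) (y : M) : Measurable (aa n K δ y) := by
  rw [aa_eq_indicator]
  exact (measurable_const.sub (measurable_const.mul (N2.H982.measurable_gg y))).indicator
    (N2.H982.measurableSet_gg δ y)

theorem abs_aa_le (n : ℕ) (K : ℝ) (hδ : 0 ≤ δ) (y x : M) :
    |aa n K δ y x| ≤ n + 2 * |K| / 3 * δ := by
  rcases lt_or_ge (gg y x) δ with h | h
  · rw [aa_of_lt h]
    have h0 : 0 ≤ gg y x := N2.H982.gg_nonneg y x
    calc |(n : ℝ) - 2 * K / 3 * gg y x| ≤ |(n : ℝ)| + |2 * K / 3 * gg y x| := abs_sub _ _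
      _ = n + 2 * |K| / 3 * gg y x := by
        rw [abs_mul, abs_of_nonneg h0, abs_div, abs_mul, Nat.abs_cast, abs_two,
          abs_of_pos (by norm_num : (0 : ℝ) < 3)]
      _ ≤ _ := by gcongr
  · rw [aa_of_ge h, abs_zero]
    positivity

theorem aa_ae (y : M) : ∀ᵐ x ∂m, cl m (aa n K δ y) x = aa n K δ y x :=
  H183.cl_ae (aa_measurable n K δ y).aestronglyMeasurable

theorem aa_mem (hfin : ∀ (x : M) (r : ℝ), m (Metric.ball x r) < ∞) (hδ : 0 ≤ δ) (y : M)
    (p : ℝ≥0∞) : MemLp (cl m (aa n K δ y)) p m := by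
  have h1 : MemLp (aa n K δ y) p m := by
    rw [aa_eq_indicator]
    rw [memLp_indicator_iff_restrict (N2.H982.measurableSet_gg δ y)]
    have : IsFiniteMeasure (m.restrict {x | gg y x < δ}) :=
      ⟨by rw [Measure.restrict_apply_univ]; exact N2.H982.measure_gg_lt hfin δ y⟩
    refine MemLp.of_bound
      ((measurable_const.sub (measurable_const.mul (N2.H982.measurable_gg y))).aestronglyMeasurable)
      (n + 2 * |K| / 3 * δ) ?_
    filter_upwards [ae_restrict_mem (N2.H982.measurableSet_gg δ y)] with x hx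
    have h2 := abs_aa_le n K hδ y x
    rw [aa_of_lt (by exact hx)] at h2
    exact h2
  refine h1.ae_eq ?_
  filter_upwards [aa_ae (m := m) (n := n) (K := K) (δ := δ) y] with x hx
  exact hx.symm

/-- the right-hand side of `lc_int` as a pairing -/
theorem I_aa_mul (y : M) (φ : M →ₘ[m] ℝ) :
    I (cl m (aa n K δ y) * φ) = ∫ x in {x | gg y x < δ}, ((n : ℝ) - 2 * K / 3 * gg y x) * φ x ∂m := by
  rw [← integral_indicator (N2.H982.measurableSet_gg δ y)]
  refine integral_congr_ae ?_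
  filter_upwards [mul_ae (cl m (aa n K δ y)) φ, aa_ae (m := m) (n := n) (K := K) (δ := δ) y]
    with x h1 h2
  rw [h1, h2, aa_eq_indicator]
  by_cases hx : x ∈ {x | gg y x < δ}
  · rw [Set.indicator_of_mem hx, Set.indicator_of_mem hx]
  · rw [Set.indicator_of_notMem hx, Set.indicator_of_notMem hx, zero_mul]

variable [SecondCountableTopology M]

omit [BorelSpace M] [SecondCountableTopology M] [MetricSpace M] in
theorem pair_lap {C : Calc m} {f g k : M →ₘ[m] ℝ} (h : C.IsLap f g) (hk : k ∈ C.W) :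
    I (g * k) = -I (C.Γ f k) := by
  have h1 : I (C.Γ f k) = -I (g * k) := h.2.2 k hk
  linarith

/-- (LC) for all nonnegative Sobolev functions: `-∫ ⟨∇w_y,∇φ⟩ ≤ ∫ a_y φ` -/
theorem lc_all (h : N2.RA.NSp m n K θ) (hδ : 0 < δ) (y : M) {φ : M →ₘ[m] ℝ}
    (hφ : φ ∈ (sob m).W) (h0 : 0 ≤ φ) :
    -I ((sob m).Γ (cl m (ww δ y)) φ) ≤ I (cl m (aa n K δ y) * φ) := by
  rw [I_aa_mul]
  exact N2.H982.lc_int h hδ y hφ h0

/-- (LC) in the form `Δ P_t w_y ≤ P_t a_y`, i.e. `ν_{y,t} ≥ 0` -/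
theorem lap_P_ww_le (h : N2.RA.NSp m n K θ) (hδ : 0 < δ) (y : M) {t : ℝ} (ht : 0 < t) :
    (sob m).lap ((sob m).P t (cl m (ww δ y))) ≤ (sob m).P t (cl m (aa n K δ y)) := by
  have hC : IsDir (sob m) := h.isDir
  have hwA : cl m (ww δ y) ∈ (sob m).A := N2.H982.ww_A h.fin hδ.le y
  have hw2 : MemLp (cl m (ww δ y)) 2 m := hC.memLp _ hwA.1
  have ha2 : MemLp (cl m (aa n K δ y)) 2 m := aa_mem h.fin hδ.le y 2
  have hL := hC.P_isLap ht hw2
  rw [← sub_nonneg]
  refine nonneg_of_forall_L2 (mem_sub (hC.P_mem2 t ha2) hL.2.1) fun ψ h0 h2 htop => ?_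
  have hψ := hC.P_isLap ht h2
  have e1 : I ((sob m).lap ((sob m).P t (cl m (ww δ y))) * ψ)
      = -I ((sob m).Γ (cl m (ww δ y)) ((sob m).P t ψ)) := by
    have h3 : (sob m).lap ((sob m).P t (cl m (ww δ y)))
        = (sob m).P (t / 2) ((sob m).lap ((sob m).P (t / 2) (cl m (ww δ y)))) := by
      have := hC.P_lap_add (s := t / 2) (t := t / 2) (by linarith) (by linarith) hw2
      rw [← this]
      congr 2
      ring
    have hh := hC.P_isLap (t := t / 2) (by linarith) hw2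
    have hp := hC.P_isLap (t := t / 2) (by linarith) h2
    have h4 : (sob m).lap ((sob m).P t ψ)
        = (sob m).P (t / 2) ((sob m).lap ((sob m).P (t / 2) ψ)) := by
      have := hC.P_lap_add (s := t / 2) (t := t / 2) (by linarith) (by linarith) h2
      rw [← this]
      congr 2
      ring
    rw [h3, hC.P_symm _ hh.2.1 h2]
    have h5 := pair_lap hh hp.1
    have h6 := pair_lap hp hh.1
    rw [hC.symm _ hp.1 _ hh.1] at h6
    rw [h5, ← h6, ← hC.P_symm _ hp.2.1 hw2, ← h4, pair_lap hψ hwA.1, hC.symm _ hψ.1 _ hwA.1]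
  have e2 : I ((sob m).P t (cl m (aa n K δ y)) * ψ) = I (cl m (aa n K δ y) * (sob m).P t ψ) :=
    hC.P_symm t ha2 h2
  rw [sub_mul, I_sub (mem_mul_22 (hC.P_mem2 t ha2) h2) (mem_mul_22 hL.2.1 h2), e1, e2]
  have := lc_all h hδ y (hC.P_mem ht h2) (hC.P_nonneg ht.le h2 h0)
  linarith

/-! ### The gradient of `w_y` -/

omit [MeasurableSpace M] [BorelSpace M] [SecondCountableTopology M] in
theorem abs_gg_sub (y x x' : M) :
    |gg y x' - gg y x| ≤ dist x' x * (dist x y + dist x' x / 2) := by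
  have h1 : |dist x' y - dist x y| ≤ dist x' x := abs_dist_sub_le x' x y
  have h2 : dist x' y ≤ dist x' x + dist x y := dist_triangle x' x y
  have e : gg y x' - gg y x = (dist x' y - dist x y) * ((dist x' y + dist x y) / 2) := by
    unfold gg; ring
  have h3 : 0 ≤ (dist x' y + dist x y) / 2 := by positivity
  rw [e, abs_mul, abs_of_nonneg h3]
  refine mul_le_mul h1 (by linarith) h3 dist_nonneg

omit [MeasurableSpace M] [BorelSpace M] [SecondCountableTopology M] in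
theorem abs_ww_sub_le (y x x' : M) :
    |ww δ y x' - ww δ y x| ≤ dist x' x * (dist x y + dist x' x / 2) := by
  have e : ww δ y x' - ww δ y x = min (gg y x') δ - min (gg y x) δ := by
    unfold ww cc gg; ring
  rw [e]
  refine (abs_min_sub_min_le_max _ _ _ _).trans ?_
  rw [sub_self, abs_zero, max_eq_left (abs_nonneg _)]
  exact abs_gg_sub y x x'

omit [MeasurableSpace M] [BorelSpace M] [SecondCountableTopology M] in
theorem ww_lipAt_le (y x : M) : lipAt (ww δ y) x ≤ ENNReal.ofReal (dist x y) := by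
  rw [Met.lipAt_le_ofReal_iff dist_nonneg]
  intro c' hc'
  have h1 : ∀ᶠ z in 𝓝 x, dist z x < 2 * (c' - dist x y) :=
    (Metric.eventually_nhds_iff.2 ⟨2 * (c' - dist x y), by linarith, fun z hz => hz⟩)
  filter_upwards [h1] with z hz
  refine (abs_ww_sub_le y x z).trans ?_
  rw [mul_comm]
  refine mul_le_mul_of_nonneg_right ?_ dist_nonneg
  linarith

theorem ww_grad_le (hfin : ∀ (x : M) (r : ℝ), m (Metric.ball x r) < ∞) (hδ : 0 < δ) (y : M) :
    ∀ᵐ x ∂m, (sob m).Γ (cl m (ww δ y)) (cl m (ww δ y)) x ≤ 2 * gg y x := by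
  filter_upwards [N2.Γ_cl_lip hfin (N2.H982.ww_lip hδ.le y) (x₀ := y) (R := √(2 * δ))
    (N2.H982.ww_far hδ.le y)] with x hx
  refine hx.trans ?_
  have h1 : (lipAt (ww δ y) x).toReal ≤ dist x y :=
    ENNReal.toReal_le_of_le_ofReal dist_nonneg (ww_lipAt_le y x)
  have h2 : (lipAt (ww δ y) x).toReal ^ 2 ≤ dist x y ^ 2 :=
    pow_le_pow_left₀ ENNReal.toReal_nonneg h1 2
  unfold gg
  linarith

/-- `|∇w_y|² = 2 g_y` on `{g_y < δ}` -/
theorem ww_grad_eq (h : N2.RA.NSp m n K θ) (hδ : 0 < δ) (y : M) :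
    ∀ᵐ x ∂m, gg y x < δ → (sob m).Γ (cl m (ww δ y)) (cl m (ww δ y)) x = 2 * gg y x := by
  filter_upwards [ww_grad_le h.fin hδ y, N2.H339.ww_grad h hδ y] with x h1 h2 hx
  exact le_antisymm h1 (h2 hx)

/-- `∇w_y = 0` on `{g_y ≥ δ}` -/
theorem ww_grad_zero (h : N2.RA.NSp m n K θ) (hδ : 0 < δ) (y : M) {f : M →ₘ[m] ℝ}
    (hf : f ∈ (sob m).W) :
    ∀ᵐ x ∂m, δ ≤ gg y x → (sob m).Γ (cl m (ww δ y)) f x = 0 := by
  have hC := h.isDir
  have hwA := N2.H982.ww_A h.fin hδ.le y (m := m)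
  filter_upwards [hC.Γ_ae_zero hwA.1 hf, N2.H982.ww_ae (m := m) hδ.le y] with x h1 h2 hx
  exact h1 (by rw [h2, N2.H982.ww_of_ge hx])

end Vale.Agent.P242.H992
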