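import Vale.Agent.P242.H992.KerF
import Vale.Agent.P242.H520.Ham
import Vale.Agent.P233.H103.Semi5

/-! P242, F-KER half (2) (helper992): the block `Blk_Ker0`. -/

set_option linter.all false

open MeasureTheory Filter Topology Set
open scoped ENNReal NNReal InnerProductSpace

universe u

namespace Vale.Agent.P242.H992

open Vale.Agent.P233 Vale.Agent.P242.H520

section

variable {M : Type u} [MetricSpace M] [MeasurableSpace M] {m : Measure M}

theorem le_iff_val {f : HH m} : 0 ≤ f ↔ (0 : M →ₘ[m] ℝ) ≤ f.1 := by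
  rw [← Lp.coeFn_nonneg, nonneg_iff_ae]
  rfl

end

theorem hs_of {M : Type u} [MetricSpace M] [CompleteSpace M] [SecondCountableTopology M]
    [MeasurableSpace M] [BorelSpace M] {m : Measure M} {K N : ℝ} (hS : Std m K N)
    (hH : Blk_Ham.{u}) :
    ∃ (C : ℝ) (S : ℝ → HH m →L[ℝ] HH m), HS m S C ∧
      ∀ s, ∀ f : M →ₘ[m] ℝ, ∀ hf : MemLp f 2 m, (sob m).P s f = (S s (hf.toLp (f : M → ℝ))).1 := by
  have hG := H599.std_gamma hS
  have hB := hG.bei hS.hN hS.rcd.bochner
  have := H599.std_sf hS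
  have hD := hG.toIsDir
  obtain ⟨C, hC0, hC⟩ := hH M m K N hS
  have hval : ∀ s (f : HH m), (hD.gen.S s f).1 = (sob m).P s f.1 := by
    intro s f
    rw [hD.P_val s (mem_val f), val_toLp]
  refine ⟨C, fun s => hD.gen.S s, ?_, fun s f hf => hD.P_val s hf⟩
  refine
    { full := hS.full
      fin := hS.hfin
      semi := fun s t hs ht f => hD.gen.S_add hs ht f
      symm := fun s _ f g => hD.gen.S_symm s f g
      contr := fun s _ f => hD.gen.S_norm s f
      pos := fun s hs f hf => ?_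
      le := fun s hs f A hA hf => ?_
      mass := fun s hs f hf hi => ?_
      C_pos := hC0
      ham := fun s hs hs1 A hA f hf hfA => ?_ }
  · rw [le_iff_val, hval]
    exact hD.P_nonneg hs (mem_val f) (le_iff_val.1 hf)
  · have h1 := hD.P_le hs (mem_val f) hA hf
    rw [← hval] at h1
    exact h1
  · have h1 : MemLp (f.1 : M → ℝ) 1 m := memLp_one_iff_integrable.2 hi
    have h2 := hD.P_L1 hs (mem_val f) h1
    have h3 := IsGamma.P_mass hG hB hs (mem_val f) h1
    rw [← hval] at h2 h3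
    exact ⟨memLp_one_iff_integrable.1 h2.1, h3⟩
  · have h0 : ∀ᵐ x ∂m, 0 ≤ f.1 x ∧ f.1 x ≤ A := by
      filter_upwards [(Lp.coeFn_nonneg f).2 hf, hfA] with x h1 h2
      exact ⟨h1, h2⟩
    obtain ⟨u, hu, hu1, hu2, hu3⟩ := hC s hs hs1 A hA f.1 (mem_val f) h0
    rw [← hval] at hu2
    exact ⟨u, hu, hu1, hu2, hu3⟩

theorem ker0_of {M : Type u} [MetricSpace M] [CompleteSpace M] [SecondCountableTopology M]
    [MeasurableSpace M] [BorelSpace M] {m : Measure M} {C : ℝ} {S : ℝ → HH m →L[ℝ] HH m}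
    (h : HS m S C)
    (hP : ∀ s, ∀ f : M →ₘ[m] ℝ, ∀ hf : MemLp f 2 m,
      (sob m).P s f = (S s (hf.toLp (f : M → ℝ))).1) :
    Ker0 m (pk S) where
  cont s hs := h.pk_cont hs
  nonneg s hs x z := h.pk_nonneg hs x z
  symm s hs x z := pk_symm s x z
  mem2 s hs x := h.pk_mem2 hs x
  int s hs x := h.pk_int hs x
  mass s hs x := h.pk_mass hs x
  semi s t hs ht x z := h.pk_semi hs ht x z
  rep s hs f hf := by
    rw [hP s f hf]
    filter_upwards [h.kk_rep hs (hf.toLp (f : M → ℝ))] with x hx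
    rw [pt, h.pk_pair' hs x hf, ← hx]
  contf s hs f hf := by
    have h1 := h.kk_inner_cont hs (hf.toLp f)
    refine h1.congr fun x => ?_
    rw [pt, h.pk_pair' hs x hf]
  l2 := ⟨K1 C ^ 2, by have := K1_pos C; positivity, fun s hs hs1 x => h.pk_l2 hs hs1 x⟩
  lip2 := ⟨4 * K2 C ^ 2 * C, by have := K2_pos C; have := h.C_pos; positivity,
    fun s hs hs1 x y hxy => h.pk_lip2 hs hs1 hxy⟩
  har δ hδ := ⟨(1 + 1 / δ) * C, by have := h.C_pos; positivity,
    fun s hs hs1 A F hA hF hF0 x y => h.bdd_har hs hs1 hδ hA hF hF0 x y⟩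
  gra η hη hη1 := ⟨(1 + 2 / √(2 * η)) * √C, by have := h.C_pos; positivity,
    fun s hs hs1 A F hA hF hF0 x y => h.bdd_gra hs hs1 hη hη1 hA hF hF0 x y⟩

theorem blk_Ker0_of (hH : Blk_Ham.{u}) : Blk_Ker0.{u} := by
  intro M _ _ _ _ _ m K N hS
  obtain ⟨C, S, h, hP⟩ := hs_of hS hH
  exact ⟨pk S, ker0_of h hP⟩

/-- **F-KER**: existence of the heat kernel -/
theorem blk_Ker0 : Blk_Ker0.{u} := blk_Ker0_of blk_Ham

end Vale.Agent.P242.H992
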