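import Mathlib.Analysis.SpecialFunctions.Pow.Real
import Mathlib.Analysis.SpecialFunctions.Log.Basic
import Mathlib.Tactic

/-! P242, F-KER half (2) (helper992): real-variable part. From the Lipschitz bound of
`w = √(log (A/u))` to the Harnack inequality and the gradient bound with loss. -/

set_option linter.all false

open Real

namespace Vale.Agent.P242.H992

/-- `w(u) = √(log (A/u))` -/
noncomputable def ww0 (A u : ℝ) : ℝ := √(Real.log (A / u))

theorem ww0_sq {A u : ℝ} (hA : 0 < A) (hu : 0 < u) (huA : u ≤ A) :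
    ww0 A u ^ 2 = Real.log (A / u) := by
  unfold ww0
  exact Real.sq_sqrt (Real.log_nonneg ((one_le_div hu).2 huA))

theorem eq_exp {A u : ℝ} (hA : 0 < A) (hu : 0 < u) (huA : u ≤ A) :
    u = A * Real.exp (-(ww0 A u ^ 2)) := by
  rw [ww0_sq hA hu huA, Real.exp_neg, Real.exp_log (div_pos hA hu)]
  field_simp

/-- Harnack with loss -/
theorem har_of {A a b D δ : ℝ} (hA : 0 < A) (hδ : 0 < δ) (ha : 0 ≤ a) (haA : a ≤ A) (hb : 0 ≤ b)
    (hbA : b ≤ A) (h : 0 < a → 0 < b ∧ |ww0 A a - ww0 A b| ≤ D) :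
    a ^ (1 + δ) ≤ A ^ δ * b * Real.exp ((1 + 1 / δ) * D ^ 2) := by
  rcases ha.eq_or_lt with h0 | h0
  · rw [← h0, Real.zero_rpow (by positivity)]
    positivity
  obtain ⟨hb0, hD⟩ := h h0
  have ea := eq_exp hA h0 haA
  have eb := eq_exp hA hb0 hbA
  set w := ww0 A a with hw
  set v := ww0 A b with hv
  have hw0 : 0 ≤ w := Real.sqrt_nonneg _
  have hv0 : 0 ≤ v := Real.sqrt_nonneg _
  have hD0 : 0 ≤ D := (abs_nonneg _).trans hD
  have h1 : v ≤ w + D := by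
    have := (abs_le.1 hD).1
    linarith
  have h2 : v ^ 2 ≤ (1 + δ) * w ^ 2 + (1 + 1 / δ) * D ^ 2 := by
    have h3 : v ^ 2 ≤ (w + D) ^ 2 := pow_le_pow_left₀ hv0 h1 2
    have h4 : 0 ≤ (δ * w - D) ^ 2 / δ := by positivity
    have h5 : (δ * w - D) ^ 2 / δ = δ * w ^ 2 - 2 * w * D + 1 / δ * D ^ 2 := by
      field_simp
      ring
    nlinarith
  have e1 : a ^ (1 + δ) = A ^ δ * (A * Real.exp (-((1 + δ) * w ^ 2))) := by
    rw [ea, Real.mul_rpow hA.le (Real.exp_pos _).le, ← Real.exp_mul, Real.rpow_add hA,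
      Real.rpow_one]
    ring_nf
  rw [e1, mul_assoc]
  refine mul_le_mul_of_nonneg_left ?_ (by positivity)
  rw [eb, mul_assoc, ← Real.exp_add]
  refine mul_le_mul_of_nonneg_left (Real.exp_le_exp.2 ?_) hA.le
  linarith

/-- `1 + 2 √(log t) ≤ C t^η` -/
theorem one_add_sqrt_log_le {t η : ℝ} (ht : 1 ≤ t) (hη : 0 < η) :
    1 + 2 * √(Real.log t) ≤ (1 + 2 / √(2 * η)) * t ^ η := by
  have h0 : 0 < t := by linarith
  have h1 : Real.log t ≤ t ^ (2 * η) / (2 * η) := Real.log_le_rpow_div h0.le (by positivity)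
  have h2 : √(Real.log t) ≤ t ^ η / √(2 * η) := by
    rw [Real.sqrt_le_left (by positivity)]
    rw [div_pow, Real.sq_sqrt (by positivity), ← Real.rpow_natCast, ← Real.rpow_mul h0.le]
    convert h1 using 3
    push_cast
    ring
  have h3 : 1 ≤ t ^ η := Real.one_le_rpow ht hη.le
  calc 1 + 2 * √(Real.log t) ≤ t ^ η + 2 * (t ^ η / √(2 * η)) := by linarith
    _ = _ := by ring

/-- gradient bound with loss, one sided -/
theorem gra_of_le {A a b D η : ℝ} (hA : 0 < A) (hη : 0 < η) (hη1 : η ≤ 1) (ha : 0 ≤ a) (haA : a ≤ A)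
    (hb : 0 ≤ b) (hbA : b ≤ A) (h : 0 < a → 0 < b ∧ |ww0 A a - ww0 A b| ≤ D) (hD : 0 ≤ D)
    (hba : b ≤ a) :
    a - b ≤ (1 + 2 / √(2 * η)) * A ^ η * a ^ (1 - η) * D := by
  rcases ha.eq_or_lt with h0 | h0
  · rw [← h0]
    have : 0 ≤ (1 + 2 / √(2 * η)) * A ^ η * (0 : ℝ) ^ (1 - η) * D := by positivity
    linarith
  obtain ⟨hb0, hD1⟩ := h h0
  have ea := eq_exp hA h0 haA
  have eb := eq_exp hA hb0 hbA
  set w := ww0 A a with hw
  set v := ww0 A b with hv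
  have hw0 : 0 ≤ w := Real.sqrt_nonneg _
  have hv0 : 0 ≤ v := Real.sqrt_nonneg _
  have hwv : w ≤ v := by
    rw [hw, hv]
    unfold ww0
    refine Real.sqrt_le_sqrt (Real.log_le_log (by positivity) ?_)
    exact div_le_div_of_nonneg_left hA.le hb0 hba
  have h1 : v - w ≤ D := by
    have := (abs_le.1 hD1).1
    linarith
  have hbe : b = a * Real.exp (-(v ^ 2 - w ^ 2)) := by
    calc b = A * Real.exp (-v ^ 2) := eb
      _ = A * Real.exp (-w ^ 2) * Real.exp (-(v ^ 2 - w ^ 2)) := by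
        rw [mul_assoc, ← Real.exp_add]
        ring_nf
      _ = a * Real.exp (-(v ^ 2 - w ^ 2)) := by rw [← ea]
  have h2 : a - b = a * (1 - Real.exp (-(v ^ 2 - w ^ 2))) := by
    rw [mul_sub, mul_one, ← hbe]
  have h3 : 1 - Real.exp (-(v ^ 2 - w ^ 2)) ≤ (1 + 2 * w) * (v - w) := by
    have h4 : 1 - Real.exp (-(v ^ 2 - w ^ 2)) ≤ v ^ 2 - w ^ 2 := by
      have := Real.add_one_le_exp (-(v ^ 2 - w ^ 2))
      linarith
    have h5 : 1 - Real.exp (-(v ^ 2 - w ^ 2)) ≤ 1 := by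
      have := Real.exp_pos (-(v ^ 2 - w ^ 2))
      linarith
    rcases le_total (v - w) 1 with h6 | h6
    · nlinarith
    · nlinarith
  have h7 : (1 + 2 * w) * a ≤ (1 + 2 / √(2 * η)) * A ^ η * a ^ (1 - η) := by
    have h8 := one_add_sqrt_log_le (t := A / a) ((one_le_div h0).2 haA) hη
    have h9 : (1 + 2 * w) * a ≤ ((1 + 2 / √(2 * η)) * (A / a) ^ η) * a :=
      mul_le_mul_of_nonneg_right h8 h0.le
    refine h9.trans (le_of_eq ?_)
    rw [Real.div_rpow hA.le h0.le, Real.rpow_sub h0, Real.rpow_one]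
    field_simp
  have h10 : a * ((1 + 2 * w) * (v - w)) ≤ (1 + 2 / √(2 * η)) * A ^ η * a ^ (1 - η) * D := by
    calc a * ((1 + 2 * w) * (v - w)) = ((1 + 2 * w) * a) * (v - w) := by ring
      _ ≤ ((1 + 2 / √(2 * η)) * A ^ η * a ^ (1 - η)) * D := by
        refine mul_le_mul h7 h1 (by linarith) (by positivity)
  rw [h2]
  exact (mul_le_mul_of_nonneg_left h3 h0.le).trans h10

/-- gradient bound with loss -/
theorem gra_of {A a b D η : ℝ} (hA : 0 < A) (hη : 0 < η) (hη1 : η ≤ 1) (ha : 0 ≤ a) (haA : a ≤ A)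
    (hb : 0 ≤ b) (hbA : b ≤ A) (h : 0 < a → 0 < b ∧ |ww0 A a - ww0 A b| ≤ D)
    (h' : 0 < b → 0 < a ∧ |ww0 A b - ww0 A a| ≤ D) (hD : 0 ≤ D) :
    |a - b| ≤ (1 + 2 / √(2 * η)) * A ^ η * (max a b) ^ (1 - η) * D := by
  rcases le_total b a with hba | hab
  · rw [abs_of_nonneg (by linarith), max_eq_left hba]
    exact gra_of_le hA hη hη1 ha haA hb hbA h hD hba
  · rw [abs_sub_comm, abs_of_nonneg (by linarith), max_eq_right hab]
    exact gra_of_le hA hη hη1 hb hbA ha haA h' hD hab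

end Vale.Agent.P242.H992
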