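import Vale.Agent.P242.H992.KerA
import Mathlib.MeasureTheory.Function.L2Space
import Mathlib.MeasureTheory.Function.LpOrder
import Mathlib.MeasureTheory.Measure.OpenPos

/-! P242, F-KER half (2) (helper992): abstract part. A symmetric Markov semigroup `S` on `L²(m)`
with Hamilton's estimate. Continuous representatives and the bounds by level sets. -/

set_option linter.all false

open MeasureTheory Filter Topology Set
open scoped ENNReal NNReal InnerProductSpace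

universe u

namespace Vale.Agent.P242.H992

variable {X : Type u} [MetricSpace X] [MeasurableSpace X] {m : Measure X}

/-- the Hilbert space `L²(m)` -/
abbrev HH (m : Measure X) : Type u := Lp ℝ 2 m

/-- symmetric Markov semigroup with Hamilton's estimate -/
structure HS (m : Measure X) (S : ℝ → HH m →L[ℝ] HH m) (C : ℝ) : Prop where
  full : m.IsOpenPosMeasure
  fin : ∀ (x : X) (r : ℝ), m (Metric.ball x r) < ∞
  semi : ∀ s t, 0 ≤ s → 0 ≤ t → ∀ f, S (s + t) f = S s (S t f)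
  symm : ∀ s, 0 ≤ s → ∀ f g, ⟪S s f, g⟫_ℝ = ⟪f, S s g⟫_ℝ
  contr : ∀ s, 0 ≤ s → ∀ f, ‖S s f‖ ≤ ‖f‖
  pos : ∀ s, 0 ≤ s → ∀ f, 0 ≤ f → 0 ≤ S s f
  le : ∀ s, 0 ≤ s → ∀ f : HH m, ∀ A : ℝ, 0 ≤ A → (∀ᵐ x ∂m, f x ≤ A) → ∀ᵐ x ∂m, S s f x ≤ A
  mass : ∀ s, 0 ≤ s → ∀ f : HH m, 0 ≤ f → Integrable f m →
    Integrable (S s f) m ∧ ∫ x, S s f x ∂m = ∫ x, f x ∂m
  C_pos : 0 < C
  ham : ∀ s, 0 < s → s ≤ 1 → ∀ A : ℝ, 0 < A → ∀ f : HH m, 0 ≤ f → (∀ᵐ x ∂m, f x ≤ A) →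
    ∃ u : X → ℝ, Continuous u ∧ (∀ x, 0 ≤ u x ∧ u x ≤ A) ∧ S s f =ᵐ[m] u ∧
      ∀ x y, 0 < u x → 0 < u y ∧ |ww0 A (u x) - ww0 A (u y)| ≤ √(C / s) * dist x y

/-- bounded elements of `L²` -/
def BD (m : Measure X) : Submodule ℝ (HH m) where
  carrier := {f | ∃ A : ℝ, ∀ᵐ x ∂m, |f x| ≤ A}
  add_mem' := by
    rintro f g ⟨A, hA⟩ ⟨B, hB⟩
    refine ⟨A + B, ?_⟩
    filter_upwards [hA, hB, Lp.coeFn_add f g] with x h1 h2 h3
    rw [h3, Pi.add_apply]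
    exact (abs_add_le _ _).trans (add_le_add h1 h2)
  zero_mem' := by
    refine ⟨0, ?_⟩
    filter_upwards [Lp.coeFn_zero ℝ 2 m] with x h
    rw [h, Pi.zero_apply, abs_zero]
  smul_mem' := by
    rintro c f ⟨A, hA⟩
    refine ⟨|c| * A, ?_⟩
    filter_upwards [hA, Lp.coeFn_smul c f] with x h1 h2
    rw [h2, Pi.smul_apply, smul_eq_mul, abs_mul]
    exact mul_le_mul_of_nonneg_left h1 (abs_nonneg c)

theorem mem_BD {f : HH m} : f ∈ BD m ↔ ∃ A : ℝ, ∀ᵐ x ∂m, |f x| ≤ A := Iff.rfl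

/-- decomposition into positive and negative part -/
theorem exists_pm (f : HH m) : ∃ g h : HH m, f = g - h ∧ 0 ≤ g ∧ 0 ≤ h ∧ ‖g‖ ≤ ‖f‖ ∧ ‖h‖ ≤ ‖f‖ ∧
    (f ∈ BD m → g ∈ BD m ∧ h ∈ BD m) := by
  refine ⟨f ⊔ 0, (-f) ⊔ 0, ?_, le_sup_right, le_sup_right, ?_, ?_, ?_⟩
  · exact (posPart_sub_negPart f).symm
  · refine Lp.norm_le_norm_of_ae_le ?_
    filter_upwards [Lp.coeFn_sup f 0, Lp.coeFn_zero ℝ 2 m] with x h1 h2
    rw [h1, Pi.sup_apply, h2, Pi.zero_apply, Real.norm_eq_abs, Real.norm_eq_abs]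
    rw [abs_of_nonneg (le_max_right _ _)]
    exact max_le (le_abs_self _) (abs_nonneg _)
  · refine Lp.norm_le_norm_of_ae_le ?_
    filter_upwards [Lp.coeFn_sup (-f) 0, Lp.coeFn_zero ℝ 2 m, Lp.coeFn_neg f] with x h1 h2 h3
    rw [h1, Pi.sup_apply, h2, h3, Pi.zero_apply, Pi.neg_apply, Real.norm_eq_abs, Real.norm_eq_abs]
    rw [abs_of_nonneg (le_max_right _ _)]
    exact max_le (neg_le_abs _) (abs_nonneg _)
  · rintro ⟨A, hA⟩
    constructor
    · refine ⟨A, ?_⟩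
      filter_upwards [Lp.coeFn_sup f 0, Lp.coeFn_zero ℝ 2 m, hA] with x h1 h2 h3
      rw [h1, Pi.sup_apply, h2, Pi.zero_apply, abs_of_nonneg (le_max_right _ _)]
      exact max_le ((le_abs_self _).trans h3) ((abs_nonneg _).trans h3)
    · refine ⟨A, ?_⟩
      filter_upwards [Lp.coeFn_sup (-f) 0, Lp.coeFn_zero ℝ 2 m, Lp.coeFn_neg f, hA] with x h1 h2 h4 h3
      rw [h1, Pi.sup_apply, h2, h4, Pi.zero_apply, Pi.neg_apply, abs_of_nonneg (le_max_right _ _)]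
      exact max_le ((neg_le_abs _).trans h3) ((abs_nonneg _).trans h3)

/-! ### Continuous representatives -/

open Classical in
/-- the continuous representative of `S_s f` -/
noncomputable def crep (S : ℝ → HH m →L[ℝ] HH m) (s : ℝ) (f : HH m) : X → ℝ :=
  if h : ∃ u : X → ℝ, Continuous u ∧ S s f =ᵐ[m] u then h.choose else 0

section

variable [BorelSpace X] {S : ℝ → HH m →L[ℝ] HH m} {C : ℝ} {s : ℝ}

theorem crep_eq (h : m.IsOpenPosMeasure) {f : HH m} {u : X → ℝ} (hu : Continuous u)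
    (hf : S s f =ᵐ[m] u) : crep S s f = u := by
  have hex : ∃ u : X → ℝ, Continuous u ∧ S s f =ᵐ[m] u := ⟨u, hu, hf⟩
  unfold crep
  rw [dif_pos hex]
  have h1 := hex.choose_spec
  exact (Continuous.ae_eq_iff_eq (μ := m) h1.1 hu).1 (h1.2.symm.trans hf)

theorem HS.exists_rep (h : HS m S C) (hs : 0 < s) (hs1 : s ≤ 1) {f : HH m} (hf : f ∈ BD m) :
    ∃ u : X → ℝ, Continuous u ∧ S s f =ᵐ[m] u := by
  obtain ⟨g, k, e, hg, hk, -, -, hb⟩ := exists_pm f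
  obtain ⟨⟨A, hA⟩, ⟨B, hB⟩⟩ := hb hf
  have key : ∀ (g : HH m) (A : ℝ), 0 ≤ g → (∀ᵐ x ∂m, |g x| ≤ A) →
      ∃ u : X → ℝ, Continuous u ∧ S s g =ᵐ[m] u := by
    intro g A hg hA
    obtain ⟨u, hu, -, hu2, -⟩ := h.ham s hs hs1 (|A| + 1) (by positivity) g hg (by
      filter_upwards [hA] with x hx
      have := le_abs_self (g x)
      have := le_abs_self A
      linarith)
    exact ⟨u, hu, hu2⟩
  obtain ⟨u, hu, hu2⟩ := key g A hg hA
  obtain ⟨v, hv, hv2⟩ := key k B hk hB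
  refine ⟨fun x => u x - v x, hu.sub hv, ?_⟩
  rw [e, map_sub]
  filter_upwards [Lp.coeFn_sub (S s g) (S s k), hu2, hv2] with x h1 h2 h3
  rw [h1, Pi.sub_apply, h2, h3]

theorem HS.crep_spec (h : HS m S C) (hs : 0 < s) (hs1 : s ≤ 1) {f : HH m} (hf : f ∈ BD m) :
    Continuous (crep S s f) ∧ S s f =ᵐ[m] crep S s f := by
  obtain ⟨u, hu, hu2⟩ := h.exists_rep hs hs1 hf
  rw [crep_eq h.full hu hu2]
  exact ⟨hu, hu2⟩

theorem HS.crep_add (h : HS m S C) (hs : 0 < s) (hs1 : s ≤ 1) {f g : HH m} (hf : f ∈ BD m)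
    (hg : g ∈ BD m) : crep S s (f + g) = fun x => crep S s f x + crep S s g x := by
  obtain ⟨h1, h2⟩ := h.crep_spec hs hs1 hf
  obtain ⟨h3, h4⟩ := h.crep_spec hs hs1 hg
  refine crep_eq h.full (h1.add h3) ?_
  rw [map_add]
  filter_upwards [Lp.coeFn_add (S s f) (S s g), h2, h4] with x a1 a2 a3
  rw [a1, Pi.add_apply, a2, a3]

theorem HS.crep_sub (h : HS m S C) (hs : 0 < s) (hs1 : s ≤ 1) {f g : HH m} (hf : f ∈ BD m)
    (hg : g ∈ BD m) : crep S s (f - g) = fun x => crep S s f x - crep S s g x := by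
  obtain ⟨h1, h2⟩ := h.crep_spec hs hs1 hf
  obtain ⟨h3, h4⟩ := h.crep_spec hs hs1 hg
  refine crep_eq h.full (h1.sub h3) ?_
  rw [map_sub]
  filter_upwards [Lp.coeFn_sub (S s f) (S s g), h2, h4] with x a1 a2 a3
  rw [a1, Pi.sub_apply, a2, a3]

theorem HS.crep_smul (h : HS m S C) (hs : 0 < s) (hs1 : s ≤ 1) (c : ℝ) {f : HH m} (hf : f ∈ BD m) :
    crep S s (c • f) = fun x => c * crep S s f x := by
  obtain ⟨h1, h2⟩ := h.crep_spec hs hs1 hf
  refine crep_eq h.full (h1.const_mul c) ?_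
  rw [map_smul]
  filter_upwards [Lp.coeFn_smul c (S s f), h2] with x a1 a2
  rw [a1, Pi.smul_apply, a2, smul_eq_mul]

theorem HS.crep_zero (h : HS m S C) (s : ℝ) : crep S s (0 : HH m) = fun _ => 0 := by
  refine crep_eq h.full continuous_const ?_
  rw [map_zero]
  exact Lp.coeFn_zero ℝ 2 m

/-- Hamilton's estimate for the representative -/
theorem HS.crep_ham (h : HS m S C) (hs : 0 < s) (hs1 : s ≤ 1) {A : ℝ} (hA : 0 < A) {f : HH m}
    (h0 : 0 ≤ f) (hf : ∀ᵐ x ∂m, f x ≤ A) :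
    (∀ x, 0 ≤ crep S s f x ∧ crep S s f x ≤ A) ∧ ∀ x y, 0 < crep S s f x →
      0 < crep S s f y ∧ |ww0 A (crep S s f x) - ww0 A (crep S s f y)| ≤ √(C / s) * dist x y := by
  obtain ⟨u, hu, hu1, hu2, hu3⟩ := h.ham s hs hs1 A hA f h0 hf
  rw [crep_eq h.full hu hu2]
  exact ⟨hu1, hu3⟩

theorem mem_BD_of {f : HH m} {A : ℝ} (h0 : 0 ≤ f) (hf : ∀ᵐ x ∂m, f x ≤ A) : f ∈ BD m := by
  refine ⟨A, ?_⟩
  filter_upwards [(Lp.coeFn_nonneg f).2 h0, hf] with x h1 h2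
  rw [abs_of_nonneg h1]
  exact h2

/-- splitting at the level `a` -/
theorem exists_split {a : ℝ} (ha : 0 < a) (f : HH m) (h0 : 0 ≤ f) : ∃ f' f'' : HH m,
    f = f' + f'' ∧ 0 ≤ f' ∧ (∀ᵐ x ∂m, f' x ≤ a) ∧ ‖f'‖ ≤ ‖f‖ ∧ 0 ≤ f'' ∧
      (∀ᵐ x ∂m, f'' x ≤ f x) ∧ Integrable f'' m ∧ ∫ x, f'' x ∂m ≤ ‖f‖ ^ 2 / a := by
  have hfm : Measurable (f : X → ℝ) := (Lp.stronglyMeasurable f).measurable
  set E : Set X := {x | a < f x} with hE
  have hEm : MeasurableSet E := measurableSet_lt measurable_const hfm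
  have h1 : MemLp (Set.indicator Eᶜ (f : X → ℝ)) 2 m := (Lp.memLp f).indicator hEm.compl
  have h2 : MemLp (Set.indicator E (f : X → ℝ)) 2 m := (Lp.memLp f).indicator hEm
  have hf0 := (Lp.coeFn_nonneg f).2 h0
  have c1 := h1.coeFn_toLp
  have c2 := h2.coeFn_toLp
  have b1 : ∀ x, 0 ≤ f x → 0 ≤ Set.indicator Eᶜ (f : X → ℝ) x ∧
      Set.indicator Eᶜ (f : X → ℝ) x ≤ f x := fun x hx => by
    by_cases hxE : x ∈ Eᶜ
    · rw [Set.indicator_of_mem hxE]; exact ⟨hx, le_rfl⟩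
    · rw [Set.indicator_of_notMem hxE]; exact ⟨le_rfl, hx⟩
  have b2 : ∀ x, 0 ≤ f x → 0 ≤ Set.indicator E (f : X → ℝ) x ∧
      Set.indicator E (f : X → ℝ) x ≤ f x := fun x hx => by
    by_cases hxE : x ∈ E
    · rw [Set.indicator_of_mem hxE]; exact ⟨hx, le_rfl⟩
    · rw [Set.indicator_of_notMem hxE]; exact ⟨le_rfl, hx⟩
  have b3 : ∀ x, Set.indicator E (f : X → ℝ) x ≤ f x ^ 2 / a := fun x => by
    by_cases hxE : x ∈ E
    · rw [Set.indicator_of_mem hxE, le_div_iff₀ ha]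
      have : a < f x := hxE
      nlinarith
    · rw [Set.indicator_of_notMem hxE]; positivity
  have hsq : Integrable (fun x => f x ^ 2) m := (Lp.memLp f).integrable_sq
  have hn : ‖f‖ ^ 2 = ∫ x, f x ^ 2 ∂m := by
    rw [← real_inner_self_eq_norm_sq, L2.inner_def]
    refine integral_congr_ae (Eventually.of_forall fun x => ?_)
    simp only [real_inner_self_eq_norm_sq, Real.norm_eq_abs, sq_abs]
  have i2 : Integrable (Set.indicator E (f : X → ℝ)) m := by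
    refine (hsq.div_const a).mono h2.1 ?_
    filter_upwards [hf0] with x hx
    rw [Real.norm_eq_abs, abs_of_nonneg (b2 x hx).1, Real.norm_eq_abs,
      abs_of_nonneg (by positivity)]
    exact b3 x
  refine ⟨h1.toLp _, h2.toLp _, ?_, ?_, ?_, ?_, ?_, ?_, ?_, ?_⟩
  · rw [Lp.ext_iff]
    filter_upwards [Lp.coeFn_add (h1.toLp _) (h2.toLp _), c1, c2] with x e1 e2 e3
    rw [e1, Pi.add_apply, e2, e3, ← Set.indicator_compl_add_self_apply E (f : X → ℝ) x]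
  · rw [← Lp.coeFn_nonneg]
    filter_upwards [c1, hf0] with x e1 e2
    rw [e1, Pi.zero_apply]; exact (b1 x e2).1
  · filter_upwards [c1] with x e1
    rw [e1]
    by_cases hxE : x ∈ Eᶜ
    · rw [Set.indicator_of_mem hxE]
      exact not_lt.1 hxE
    · rw [Set.indicator_of_notMem hxE]; exact ha.le
  · refine Lp.norm_le_norm_of_ae_le ?_
    filter_upwards [c1, hf0] with x e1 e2
    rw [e1, Real.norm_eq_abs, abs_of_nonneg (b1 x e2).1, Real.norm_eq_abs, abs_of_nonneg e2]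
    exact (b1 x e2).2
  · rw [← Lp.coeFn_nonneg]
    filter_upwards [c2, hf0] with x e1 e2
    rw [e1, Pi.zero_apply]; exact (b2 x e2).1
  · filter_upwards [c2, hf0] with x e1 e2
    rw [e1]; exact (b2 x e2).2
  · exact i2.congr c2.symm
  · rw [integral_congr_ae c2, hn, ← integral_div]
    exact integral_mono i2 (hsq.div_const a) b3

end

end Vale.Agent.P242.H992
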