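import Vale.Agent.P242.H992.KerB

/-! P242, F-KER half (2) (helper992): the bounds
`|P_s f(x)| ≤ C ‖f‖₂ / √V`, `|P_s f(x) - P_s f(y)| ≤ C ‖f‖₂ / √V * d(x,y)/√s`, by level sets. -/

set_option linter.all false

open MeasureTheory Filter Topology Set
open scoped ENNReal NNReal InnerProductSpace

universe u

namespace Vale.Agent.P242.H992

/-! ### real lemmas -/

theorem le_sq_of_rpow_le {y b : ℝ} (hy : 0 ≤ y) (hb : 0 ≤ b) (h : y ^ (3 / 2 : ℝ) ≤ b ^ 3) :
    y ≤ b ^ 2 := by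
  have h1 : (b ^ 2 : ℝ) ^ (3 / 2 : ℝ) = b ^ 3 := by
    rw [← Real.rpow_natCast b 2, ← Real.rpow_mul hb, ← Real.rpow_natCast b 3]
    norm_num
  rw [← h1] at h
  exact (Real.rpow_le_rpow_iff hy (by positivity) (by norm_num)).1 h

theorem rpow_half_sq {b : ℝ} (hb : 0 ≤ b) : (b ^ 2) ^ (1 / 2 : ℝ) = b := by
  rw [← Real.rpow_natCast b 2, ← Real.rpow_mul hb]
  norm_num

theorem mul_rpow_eighth {A B D : ℝ} (hA : 0 ≤ A) (hB : 0 ≤ B) (hD : 0 ≤ D) (h : A * B ^ 7 ≤ D ^ 8) :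
    A ^ (1 / 8 : ℝ) * B ^ (1 - 1 / 8 : ℝ) ≤ D := by
  have h1 : A ^ (1 / 8 : ℝ) * B ^ (1 - 1 / 8 : ℝ) = (A * B ^ 7) ^ (1 / 8 : ℝ) := by
    rw [Real.mul_rpow hA (by positivity), ← Real.rpow_natCast B 7, ← Real.rpow_mul hB]
    norm_num
  have h2 : (D ^ 8) ^ (1 / 8 : ℝ) = D := by
    rw [← Real.rpow_natCast D 8, ← Real.rpow_mul hD]
    norm_num
  rw [h1]
  exact (Real.rpow_le_rpow (by positivity) h (by norm_num)).trans (le_of_eq h2)

theorem geo_sum_le (J : ℕ) : ∑ j ∈ Finset.range J, (1 / 2 : ℝ) ^ j ≤ 2 := by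
  have h := sum_geometric_two_le J
  simpa using h

variable {X : Type u} [MetricSpace X] [MeasurableSpace X] {m : Measure X} [BorelSpace X]
  {S : ℝ → HH m →L[ℝ] HH m} {C : ℝ} {s : ℝ}

/-- the volume of the ball of radius `√s` -/
noncomputable def vol (m : Measure X) (s : ℝ) (x : X) : ℝ := (m (Metric.ball x (√s))).toReal

theorem HS.vol_pos (h : HS m S C) (hs : 0 < s) (x : X) : 0 < vol m s x := by
  have := h.full
  exact ENNReal.toReal_pos (Metric.measure_ball_pos m x (Real.sqrt_pos.2 hs)).ne' (h.fin x _).ne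

/-- first estimate: `f ≤ A`, `f` integrable -/
theorem HS.bound_int (h : HS m S C) (hs : 0 < s) (hs1 : s ≤ 1) {A : ℝ} (hA : 0 < A) {f : HH m}
    (h0 : 0 ≤ f) (hf : ∀ᵐ x ∂m, f x ≤ A) (hi : Integrable f m) {x₀ x : X}
    (hx : dist x x₀ ≤ √s) :
    vol m s x₀ * crep S s f x ^ (3 / 2 : ℝ)
      ≤ A ^ (1 / 2 : ℝ) * Real.exp (12 * C) * ∫ z, f z ∂m := by
  have hC := h.C_pos
  have hr : 0 < √s := Real.sqrt_pos.2 hs
  obtain ⟨hm1, hm2⟩ := h.mass s hs.le f h0 hi
  obtain ⟨hc1, hc2⟩ := h.crep_spec hs hs1 (mem_BD_of h0 hf)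
  obtain ⟨hb, hw⟩ := h.crep_ham hs hs1 hA h0 hf
  have key : ∀ z ∈ Metric.ball x₀ (√s), crep S s f x ^ (3 / 2 : ℝ)
      ≤ A ^ (1 / 2 : ℝ) * Real.exp (12 * C) * crep S s f z := by
    intro z hz
    have hd : dist x z ≤ 2 * √s := by
      have h1 := dist_triangle x x₀ z
      rw [Metric.mem_ball, dist_comm] at hz
      linarith
    have h1 := har_of (δ := 1 / 2) (D := √(C / s) * dist x z) hA (by norm_num) (hb x).1 (hb x).2
      (hb z).1 (hb z).2 (hw x z)
    have h2 : (√(C / s) * dist x z) ^ 2 ≤ 4 * C := by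
      rw [mul_pow, Real.sq_sqrt (by positivity)]
      have h3 : dist x z ^ 2 ≤ (2 * √s) ^ 2 := pow_le_pow_left₀ dist_nonneg hd 2
      rw [mul_pow, Real.sq_sqrt hs.le] at h3
      calc C / s * dist x z ^ 2 ≤ C / s * (2 ^ 2 * s) := by gcongr
        _ = 4 * C := by field_simp; ring
    have e : (1 : ℝ) + 1 / 2 = 3 / 2 := by norm_num
    rw [e] at h1
    refine h1.trans ?_
    have h3 : Real.exp ((1 + 1 / (1 / 2)) * (√(C / s) * dist x z) ^ 2) ≤ Real.exp (12 * C) := by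
      apply Real.exp_le_exp.2
      have : (1 + 1 / (1 / 2) : ℝ) = 3 := by norm_num
      rw [this]
      linarith
    calc A ^ (1 / 2 : ℝ) * crep S s f z * Real.exp ((1 + 1 / (1 / 2)) * (√(C / s) * dist x z) ^ 2)
        ≤ A ^ (1 / 2 : ℝ) * crep S s f z * Real.exp (12 * C) :=
          mul_le_mul_of_nonneg_left h3 (mul_nonneg (by positivity) (hb z).1)
      _ = _ := by ring
  have hci : Integrable (crep S s f) m := hm1.congr hc2
  have h1 : vol m s x₀ * crep S s f x ^ (3 / 2 : ℝ)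
      = ∫ z in Metric.ball x₀ (√s), crep S s f x ^ (3 / 2 : ℝ) ∂m := by
    rw [setIntegral_const, smul_eq_mul]
    rfl
  rw [h1]
  have h2 : ∫ z in Metric.ball x₀ (√s), crep S s f x ^ (3 / 2 : ℝ) ∂m
      ≤ ∫ z in Metric.ball x₀ (√s), A ^ (1 / 2 : ℝ) * Real.exp (12 * C) * crep S s f z ∂m := by
    refine setIntegral_mono_on ?_ ?_ Metric.isOpen_ball.measurableSet key
    · exact integrableOn_const (h.fin x₀ _).ne
    · exact (hci.const_mul _).integrableOn
  refine h2.trans ?_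
  rw [integral_const_mul]
  refine mul_le_mul_of_nonneg_left ?_ (by positivity)
  calc ∫ z in Metric.ball x₀ (√s), crep S s f z ∂m ≤ ∫ z, crep S s f z ∂m :=
        setIntegral_le_integral hci (Eventually.of_forall fun z => (hb z).1)
    _ = ∫ z, S s f z ∂m := integral_congr_ae hc2.symm
    _ = ∫ z, f z ∂m := hm2

/-- the piece between the levels `64^J` and `64^(J+1)` -/
theorem HS.piece (h : HS m S C) (hs : 0 < s) (hs1 : s ≤ 1) (J : ℕ) {f : HH m}
    (h0 : 0 ≤ f) (hf : ∀ᵐ x ∂m, f x ≤ 64 ^ (J + 1)) (hi : Integrable f m) {x₀ : X}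
    (hfV : ∫ z, f z ∂m ≤ vol m s x₀ / 64 ^ J) :
    (∀ x, dist x x₀ ≤ √s → crep S s f x ≤ 4 * Real.exp (8 * C) * (1 / 4) ^ J) ∧
    ∀ x y, dist x x₀ ≤ √s → dist y x₀ ≤ √s →
      |crep S s f x - crep S s f y| ≤ 40 * Real.exp (7 * C) * (1 / 2) ^ J
        * (√(C / s) * dist x y) := by
  have hV := h.vol_pos hs x₀
  have hA : (0 : ℝ) < 64 ^ (J + 1) := by positivity
  obtain ⟨hb, hw⟩ := h.crep_ham hs hs1 hA h0 hf
  have h1 : ∀ x, dist x x₀ ≤ √s → crep S s f x ≤ 4 * Real.exp (8 * C) * (1 / 4) ^ J := by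
    intro x hx
    have h2 := h.bound_int hs hs1 hA h0 hf hi hx
    have h3 : ((64 : ℝ) ^ (J + 1)) ^ (1 / 2 : ℝ) = 8 ^ (J + 1) := by
      have : (64 : ℝ) ^ (J + 1) = (8 ^ (J + 1)) ^ 2 := by
        rw [← pow_mul, mul_comm (J + 1) 2, pow_mul]; norm_num
      rw [this, rpow_half_sq (by positivity)]
    rw [h3] at h2
    have h4 : vol m s x₀ * crep S s f x ^ (3 / 2 : ℝ)
        ≤ 8 ^ (J + 1) * Real.exp (12 * C) * (vol m s x₀ / 64 ^ J) :=
      h2.trans (mul_le_mul_of_nonneg_left hfV (by positivity))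
    have h5 : crep S s f x ^ (3 / 2 : ℝ) ≤ (2 * Real.exp (4 * C) * (1 / 2) ^ J) ^ 3 := by
      have h6 : vol m s x₀ * crep S s f x ^ (3 / 2 : ℝ)
          ≤ vol m s x₀ * ((2 * Real.exp (4 * C) * (1 / 2) ^ J) ^ 3) := by
        refine h4.trans (le_of_eq ?_)
        rw [mul_pow, mul_pow, ← Real.exp_nat_mul, ← pow_mul, mul_comm J 3, pow_mul]
        have e1 : (64 : ℝ) ^ J = 8 ^ J * 8 ^ J := by rw [← mul_pow]; norm_num
        have e2 : ((1 / 2 : ℝ) ^ 3) ^ J = (8 ^ J)⁻¹ := by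
          rw [← inv_pow]; norm_num
        rw [e1, e2, pow_succ]
        have e3 : ((3 : ℕ) : ℝ) * (4 * C) = 12 * C := by push_cast; ring
        rw [e3]
        field_simp
        ring
      exact le_of_mul_le_mul_left h6 hV
    have h7 := le_sq_of_rpow_le (hb x).1 (by positivity) h5
    refine h7.trans (le_of_eq ?_)
    rw [mul_pow, mul_pow, ← Real.exp_nat_mul, ← pow_mul, mul_comm J 2, pow_mul]
    have e3 : ((2 : ℕ) : ℝ) * (4 * C) = 8 * C := by push_cast; ring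
    rw [e3]
    norm_num
  refine ⟨h1, fun x y hx hy => ?_⟩
  set D : ℝ := √(C / s) * dist x y with hD
  have hD0 : 0 ≤ D := by positivity
  have h2 := gra_of (η := 1 / 8) (D := D) hA (by norm_num) (by norm_num) (hb x).1 (hb x).2
    (hb y).1 (hb y).2 (hw x y) (fun h => by
      have := hw y x h
      rw [dist_comm y x] at this
      exact this) hD0
  have h3 : (1 + 2 / √(2 * (1 / 8)) : ℝ) = 5 := by
    have : √(2 * (1 / 8) : ℝ) = 1 / 2 := by
      rw [show (2 * (1 / 8) : ℝ) = (1 / 2) ^ 2 by norm_num]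
      exact Real.sqrt_sq (by norm_num)
    rw [this]
    norm_num
  rw [h3] at h2
  have hmax : max (crep S s f x) (crep S s f y) ≤ 4 * Real.exp (8 * C) * (1 / 4) ^ J :=
    max_le (h1 x hx) (h1 y hy)
  have hmax0 : 0 ≤ max (crep S s f x) (crep S s f y) := le_max_of_le_left (hb x).1
  have h4 : ((64 : ℝ) ^ (J + 1)) ^ (1 / 8 : ℝ)
      * max (crep S s f x) (crep S s f y) ^ (1 - 1 / 8 : ℝ) ≤ 8 * Real.exp (7 * C) * (1 / 2) ^ J := by
    refine mul_rpow_eighth hA.le hmax0 (by positivity) ?_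
    calc (64 : ℝ) ^ (J + 1) * max (crep S s f x) (crep S s f y) ^ 7
        ≤ 64 ^ (J + 1) * (4 * Real.exp (8 * C) * (1 / 4) ^ J) ^ 7 := by gcongr
      _ = 64 * 4 ^ 7 * Real.exp (56 * C) * (1 / 2) ^ (8 * J) := by
        rw [mul_pow, mul_pow, ← Real.exp_nat_mul, ← pow_mul, mul_comm J 7, pow_mul, pow_succ,
          pow_mul]
        have e3 : ((7 : ℕ) : ℝ) * (8 * C) = 56 * C := by push_cast; ring
        rw [e3]
        have e4 : (64 : ℝ) ^ J * ((1 / 4) ^ 7) ^ J = ((1 / 2) ^ 8) ^ J := by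
          rw [← mul_pow]; norm_num
        rw [← e4]
        ring
      _ ≤ 8 ^ 8 * Real.exp (56 * C) * (1 / 2) ^ (8 * J) := by
        gcongr
        norm_num
      _ = (8 * Real.exp (7 * C) * (1 / 2) ^ J) ^ 8 := by
        rw [mul_pow, mul_pow, ← Real.exp_nat_mul, ← pow_mul, mul_comm J 8]
        have e3 : ((8 : ℕ) : ℝ) * (7 * C) = 56 * C := by push_cast; ring
        rw [e3]
  refine h2.trans ?_
  calc 5 * ((64 : ℝ) ^ (J + 1)) ^ (1 / 8 : ℝ)
        * max (crep S s f x) (crep S s f y) ^ (1 - 1 / 8 : ℝ) * D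
      = 5 * (((64 : ℝ) ^ (J + 1)) ^ (1 / 8 : ℝ)
        * max (crep S s f x) (crep S s f y) ^ (1 - 1 / 8 : ℝ)) * D := by ring
    _ ≤ 5 * (8 * Real.exp (7 * C) * (1 / 2) ^ J) * D := by gcongr
    _ = _ := by ring

theorem quarter_le_half (J : ℕ) : (1 / 4 : ℝ) ^ J ≤ (1 / 2) ^ J :=
  pow_le_pow_left₀ (by norm_num) (by norm_num) J

/-- normalised nonnegative bounded functions -/
theorem HS.norm_bound (h : HS m S C) (hs : 0 < s) (hs1 : s ≤ 1) {x₀ : X} (J : ℕ) : ∀ f : HH m,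
    0 ≤ f → (∀ᵐ x ∂m, f x ≤ 64 ^ J) → ‖f‖ ^ 2 ≤ vol m s x₀ →
    (∀ x, dist x x₀ ≤ √s →
      crep S s f x ≤ 1 + 4 * Real.exp (8 * C) * ∑ j ∈ Finset.range J, (1 / 2 : ℝ) ^ j) ∧
    ∀ x y, dist x x₀ ≤ √s → dist y x₀ ≤ √s →
      |crep S s f x - crep S s f y|
        ≤ (3 + 40 * Real.exp (7 * C) * ∑ j ∈ Finset.range J, (1 / 2 : ℝ) ^ j)
          * (√(C / s) * dist x y) := by
  induction J with
  | zero =>
    intro f h0 hf hV
    rw [pow_zero] at hf
    obtain ⟨hb, hw⟩ := h.crep_ham hs hs1 one_pos h0 hf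
    simp only [Finset.range_zero, Finset.sum_empty, mul_zero, add_zero]
    refine ⟨fun x _ => (hb x).2, fun x y _ _ => ?_⟩
    have hD0 : 0 ≤ √(C / s) * dist x y := by positivity
    have h2 := gra_of (η := 1) (D := √(C / s) * dist x y) one_pos one_pos le_rfl (hb x).1 (hb x).2
      (hb y).1 (hb y).2 (hw x y) (fun h => by
        have := hw y x h
        rw [dist_comm y x] at this
        exact this) hD0
    rw [sub_self, Real.rpow_zero, Real.one_rpow, mul_one, mul_one, mul_one] at h2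
    refine h2.trans (mul_le_mul_of_nonneg_right ?_ hD0)
    have h3 : 1 ≤ √(2 : ℝ) := Real.one_le_sqrt.2 (by norm_num)
    have h4 : 2 / √(2 : ℝ) ≤ 2 := by
      rw [div_le_iff₀ (by positivity)]
      linarith
    linarith
  | succ J ih =>
    intro f h0 hf hV
    have hVp := h.vol_pos hs x₀
    obtain ⟨f', f'', e, a1, a2, a3, b1, b2, b3, b4⟩ :=
      exists_split (a := (64 : ℝ) ^ J) (by positivity) f h0
    have c1 : ‖f'‖ ^ 2 ≤ vol m s x₀ := (pow_le_pow_left₀ (norm_nonneg _) a3 2).trans hV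
    obtain ⟨d1, d2⟩ := ih f' a1 a2 c1
    have c2 : ∀ᵐ x ∂m, f'' x ≤ 64 ^ (J + 1) := by
      filter_upwards [b2, hf] with x h1 h2 using h1.trans h2
    have c3 : ∫ z, f'' z ∂m ≤ vol m s x₀ / 64 ^ J :=
      b4.trans (div_le_div_of_nonneg_right hV (by positivity))
    obtain ⟨d3, d4⟩ := h.piece hs hs1 J b1 c2 b3 c3
    have hadd := h.crep_add hs hs1 (mem_BD_of a1 a2) (mem_BD_of b1 c2)
    rw [← e] at hadd
    rw [hadd, Finset.sum_range_succ]
    constructor
    · intro x hx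
      have h1 := d1 x hx
      have h2 := d3 x hx
      have h3 : 4 * Real.exp (8 * C) * (1 / 4) ^ J ≤ 4 * Real.exp (8 * C) * (1 / 2 : ℝ) ^ J :=
        mul_le_mul_of_nonneg_left (quarter_le_half J) (by positivity)
      simp only
      linarith
    · intro x y hx hy
      have h1 := d2 x y hx hy
      have h2 := d4 x y hx hy
      simp only
      have e2 : crep S s f' x + crep S s f'' x - (crep S s f' y + crep S s f'' y)
          = (crep S s f' x - crep S s f' y) + (crep S s f'' x - crep S s f'' y) := by ring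
      rw [e2]
      refine (abs_add_le _ _).trans ((add_le_add h1 h2).trans (le_of_eq ?_))
      ring

/-- the constants -/
noncomputable def K1 (C : ℝ) : ℝ := 1 + 8 * Real.exp (8 * C)
noncomputable def K2 (C : ℝ) : ℝ := 3 + 80 * Real.exp (7 * C)

theorem K1_pos (C : ℝ) : 0 < K1 C := by unfold K1; positivity
theorem K2_pos (C : ℝ) : 0 < K2 C := by unfold K2; positivity

theorem HS.norm_bound' (h : HS m S C) (hs : 0 < s) (hs1 : s ≤ 1) {x₀ : X} {f : HH m}
    (h0 : 0 ≤ f) (hf : f ∈ BD m) (hV : ‖f‖ ^ 2 ≤ vol m s x₀) :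
    (∀ x, dist x x₀ ≤ √s → crep S s f x ≤ K1 C) ∧
    ∀ x y, dist x x₀ ≤ √s → dist y x₀ ≤ √s →
      |crep S s f x - crep S s f y| ≤ K2 C * (√(C / s) * dist x y) := by
  obtain ⟨A, hA⟩ := hf
  obtain ⟨J, hJ⟩ := pow_unbounded_of_one_lt A (by norm_num : (1 : ℝ) < 64)
  have hf' : ∀ᵐ x ∂m, f x ≤ 64 ^ J := by
    filter_upwards [hA] with x hx
    exact ((le_abs_self _).trans hx).trans hJ.le
  obtain ⟨h1, h2⟩ := h.norm_bound hs hs1 J f h0 hf' hV
  have hg := geo_sum_le J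
  constructor
  · intro x hx
    refine (h1 x hx).trans ?_
    unfold K1
    have := Real.exp_pos (8 * C)
    nlinarith
  · intro x y hx hy
    refine (h2 x y hx hy).trans (mul_le_mul_of_nonneg_right ?_ (by positivity))
    unfold K2
    have := Real.exp_pos (7 * C)
    nlinarith

/-- homogeneous form, nonnegative functions -/
theorem HS.bound_nonneg (h : HS m S C) (hs : 0 < s) (hs1 : s ≤ 1) {x₀ : X} {f : HH m}
    (h0 : 0 ≤ f) (hf : f ∈ BD m) :
    (∀ x, dist x x₀ ≤ √s → 0 ≤ crep S s f x ∧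
      crep S s f x ≤ K1 C * (‖f‖ / √(vol m s x₀))) ∧
    ∀ x y, dist x x₀ ≤ √s → dist y x₀ ≤ √s →
      |crep S s f x - crep S s f y| ≤ K2 C * (‖f‖ / √(vol m s x₀)) * (√(C / s) * dist x y) := by
  have hV := h.vol_pos hs x₀
  have hVs : 0 < √(vol m s x₀) := Real.sqrt_pos.2 hV
  have hnn : ∀ x, 0 ≤ crep S s f x := by
    obtain ⟨A, hA⟩ := hf
    have hA' : ∀ᵐ x ∂m, f x ≤ |A| + 1 := by
      filter_upwards [hA] with x hx
      have := le_abs_self (f x)
      have := le_abs_self A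
      linarith
    exact fun x => ((h.crep_ham hs hs1 (by positivity) h0 hA').1 x).1
  rcases eq_or_ne f 0 with rfl | hne
  · rw [h.crep_zero s, norm_zero]
    simp
  have hn : 0 < ‖f‖ := norm_pos_iff.2 hne
  set c : ℝ := √(vol m s x₀) / ‖f‖ with hc
  have hc0 : 0 < c := by positivity
  have hci : c⁻¹ = ‖f‖ / √(vol m s x₀) := by rw [hc, inv_div]
  have g0 : 0 ≤ c • f := by
    rw [← Lp.coeFn_nonneg] at h0 ⊢
    filter_upwards [h0, Lp.coeFn_smul c f] with x h1 h2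
    rw [h2, Pi.smul_apply, smul_eq_mul, Pi.zero_apply]
    exact mul_nonneg hc0.le h1
  have gV : ‖c • f‖ ^ 2 ≤ vol m s x₀ := by
    rw [norm_smul, Real.norm_eq_abs, abs_of_pos hc0, hc, div_mul_cancel₀ _ hn.ne',
      Real.sq_sqrt hV.le]
  obtain ⟨h1, h2⟩ := h.norm_bound' hs hs1 g0 ((BD m).smul_mem c hf) gV
  have hsm := h.crep_smul hs hs1 c hf
  rw [hsm] at h1 h2
  constructor
  · intro x hx
    refine ⟨hnn x, ?_⟩
    have h3 := h1 x hx
    rw [← hci]
    have h4 : crep S s f x = c⁻¹ * (c * crep S s f x) := by field_simp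
    rw [h4, mul_comm (K1 C)]
    exact mul_le_mul_of_nonneg_left h3 (by positivity)
  · intro x y hx hy
    have h3 := h2 x y hx hy
    simp only at h3
    rw [← mul_sub, abs_mul, abs_of_pos hc0] at h3
    rw [← hci]
    have h4 : |crep S s f x - crep S s f y| = c⁻¹ * (c * |crep S s f x - crep S s f y|) := by
      field_simp
    rw [h4]
    calc c⁻¹ * (c * |crep S s f x - crep S s f y|)
        ≤ c⁻¹ * (K2 C * (√(C / s) * dist x y)) := mul_le_mul_of_nonneg_left h3 (by positivity)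
      _ = _ := by ring

/-- homogeneous form -/
theorem HS.bound (h : HS m S C) (hs : 0 < s) (hs1 : s ≤ 1) {x₀ : X} {f : HH m} (hf : f ∈ BD m) :
    (∀ x, dist x x₀ ≤ √s → |crep S s f x| ≤ K1 C / √(vol m s x₀) * ‖f‖) ∧
    ∀ x y, dist x x₀ ≤ √s → dist y x₀ ≤ √s →
      |crep S s f x - crep S s f y|
        ≤ 2 * K2 C / √(vol m s x₀) * (√(C / s) * dist x y) * ‖f‖ := by
  have hV := h.vol_pos hs x₀
  have hVs : 0 < √(vol m s x₀) := Real.sqrt_pos.2 hV
  have hK1 := K1_pos C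
  have hK2 := K2_pos C
  obtain ⟨g, k, e, hg, hk, ng, nk, hb⟩ := exists_pm f
  obtain ⟨bg, bk⟩ := hb hf
  obtain ⟨g1, g2⟩ := h.bound_nonneg hs hs1 (x₀ := x₀) hg bg
  obtain ⟨k1, k2⟩ := h.bound_nonneg hs hs1 (x₀ := x₀) hk bk
  have hsub := h.crep_sub hs hs1 bg bk
  rw [← e] at hsub
  rw [hsub]
  constructor
  · intro x hx
    obtain ⟨a1, a2⟩ := g1 x hx
    obtain ⟨a3, a4⟩ := k1 x hx
    have b1 : K1 C * (‖g‖ / √(vol m s x₀)) ≤ K1 C / √(vol m s x₀) * ‖f‖ := by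
      rw [div_mul_eq_mul_div, mul_div_assoc]
      gcongr
    have b2 : K1 C * (‖k‖ / √(vol m s x₀)) ≤ K1 C / √(vol m s x₀) * ‖f‖ := by
      rw [div_mul_eq_mul_div, mul_div_assoc]
      gcongr
    simp only
    rw [abs_le]
    constructor <;> linarith
  · intro x y hx hy
    have a1 := g2 x y hx hy
    have a2 := k2 x y hx hy
    have hD0 : 0 ≤ √(C / s) * dist x y := by positivity
    have b1 : K2 C * (‖g‖ / √(vol m s x₀)) * (√(C / s) * dist x y)
        ≤ K2 C * (‖f‖ / √(vol m s x₀)) * (√(C / s) * dist x y) := by gcongr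
    have b2 : K2 C * (‖k‖ / √(vol m s x₀)) * (√(C / s) * dist x y)
        ≤ K2 C * (‖f‖ / √(vol m s x₀)) * (√(C / s) * dist x y) := by gcongr
    simp only
    have e2 : crep S s g x - crep S s k x - (crep S s g y - crep S s k y)
        = (crep S s g x - crep S s g y) - (crep S s k x - crep S s k y) := by ring
    rw [e2]
    refine (abs_sub _ _).trans ((add_le_add (a1.trans b1) (a2.trans b2)).trans (le_of_eq ?_))
    ring

end Vale.Agent.P242.H992
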