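import Vale.Agent.P242.H992.KerC
import Mathlib.Analysis.InnerProductSpace.Dual
import Mathlib.Analysis.Normed.Module.HahnBanach
import Mathlib.MeasureTheory.Function.SimpleFuncDenseLp

/-! P242, F-KER half (2) (helper992): the vectors `k_{x,s}` with `P_s f(x) = ⟨k_{x,s}, f⟩`. -/

set_option linter.all false

open MeasureTheory Filter Topology Set
open scoped ENNReal NNReal InnerProductSpace

universe u

namespace Vale.Agent.P242.H992

variable {X : Type u} [MetricSpace X] [MeasurableSpace X] {m : Measure X}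

theorem BD_dense (m : Measure X) : Dense (BD m : Set (HH m)) := by
  refine (Lp.simpleFunc.dense (E := ℝ) (p := 2) (μ := m) (by norm_num)).mono ?_
  intro f hf
  obtain ⟨g, hg⟩ := Lp.simpleFunc.toSimpleFunc_eq_toFun ⟨f, hf⟩ |> fun h =>
    (⟨Lp.simpleFunc.toSimpleFunc ⟨f, hf⟩, h⟩ : ∃ g : SimpleFunc X ℝ, ⇑g =ᵐ[m] f)
  obtain ⟨A, hA⟩ := g.exists_forall_norm_le
  refine ⟨A, ?_⟩
  filter_upwards [hg] with x hx
  rw [← hx]
  exact hA x

theorem norm_le_of_BD {g : HH m} {c : ℝ} (hc : 0 ≤ c) (h : ∀ f ∈ BD m, |⟪g, f⟫_ℝ| ≤ c * ‖f‖) :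
    ‖g‖ ≤ c := by
  have h1 : ∀ f : HH m, |⟪g, f⟫_ℝ| ≤ c * ‖f‖ := by
    have hcl : IsClosed {f : HH m | |⟪g, f⟫_ℝ| ≤ c * ‖f‖} :=
      isClosed_le (by fun_prop) (by fun_prop)
    intro f
    have h2 : closure (BD m : Set (HH m)) ⊆ {f : HH m | |⟪g, f⟫_ℝ| ≤ c * ‖f‖} :=
      hcl.closure_subset_iff.2 h
    exact h2 (BD_dense m f)
  have h2 := h1 g
  rw [real_inner_self_eq_norm_sq, abs_of_nonneg (sq_nonneg _)] at h2
  rcases (norm_nonneg g).eq_or_lt with h0 | h0
  · rw [← h0]; exact hc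
  · nlinarith

theorem inner_eq (f g : HH m) : ⟪f, g⟫_ℝ = ∫ x, f x * g x ∂m := by
  rw [L2.inner_def]
  refine integral_congr_ae (Eventually.of_forall fun x => ?_)
  simp only [real_inner_eq_re_inner, RCLike.inner_apply, conj_trivial, RCLike.re_to_real]
  ring

theorem inner_nonneg_of {f g : HH m} (hf : 0 ≤ f) (hg : 0 ≤ g) : 0 ≤ ⟪f, g⟫_ℝ := by
  rw [inner_eq]
  refine integral_nonneg_of_ae ?_
  filter_upwards [(Lp.coeFn_nonneg f).2 hf, (Lp.coeFn_nonneg g).2 hg] with x h1 h2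
  exact mul_nonneg h1 h2

theorem nonneg_of_inner {g : HH m} (h : ∀ f : HH m, 0 ≤ f → 0 ≤ ⟪g, f⟫_ℝ) : 0 ≤ g := by
  have h1 := h ((-g) ⊔ 0) le_sup_right
  have h2 : ⟪g, (-g) ⊔ 0⟫_ℝ = -⟪(-g) ⊔ 0, (-g) ⊔ 0⟫_ℝ := by
    rw [inner_eq, inner_eq, ← integral_neg]
    refine integral_congr_ae ?_
    filter_upwards [Lp.coeFn_sup (-g) 0, Lp.coeFn_zero ℝ 2 m, Lp.coeFn_neg g] with x h1 h2 h3
    rw [h1, Pi.sup_apply, h2, h3, Pi.zero_apply, Pi.neg_apply]
    rcases le_total 0 (g x) with h4 | h4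
    · rw [sup_of_le_right (by linarith)]; ring
    · rw [sup_of_le_left (by linarith)]; ring
  rw [h2, real_inner_self_eq_norm_sq] at h1
  have h3 : (-g) ⊔ 0 = 0 := by
    rw [← norm_eq_zero]
    nlinarith [norm_nonneg ((-g) ⊔ 0)]
  have h4 : -g ≤ 0 := sup_eq_right.1 h3
  exact neg_nonpos.1 h4

section

variable [BorelSpace X] {S : ℝ → HH m →L[ℝ] HH m} {C : ℝ} {s : ℝ}

/-- Riesz vector for `0 < s ≤ 1` -/
theorem HS.exists_k (h : HS m S C) (hs : 0 < s) (hs1 : s ≤ 1) (x : X) :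
    ∃ k : HH m, ∀ f ∈ BD m, ⟪k, f⟫_ℝ = crep S s f x := by
  set φ : BD m →ₗ[ℝ] ℝ :=
    { toFun := fun f => crep S s (f : HH m) x
      map_add' := fun f g => by
        rw [Submodule.coe_add, h.crep_add hs hs1 f.2 g.2]
      map_smul' := fun c f => by
        rw [Submodule.coe_smul, h.crep_smul hs hs1 c f.2]
        rfl } with hφ
  set ψ : BD m →L[ℝ] ℝ := φ.mkContinuous (K1 C / √(vol m s x)) (fun f => by
    rw [Real.norm_eq_abs]
    have := (h.bound hs hs1 (x₀ := x) f.2).1 x (by rw [dist_self]; positivity)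
    exact this) with hψ
  obtain ⟨g, hg, -⟩ := exists_extension_norm_eq (𝕜 := ℝ) (BD m) ψ
  refine ⟨(InnerProductSpace.toDual ℝ (HH m)).symm g, fun f hf => ?_⟩
  rw [InnerProductSpace.toDual_symm_apply]
  exact hg ⟨f, hf⟩

open Classical in
/-- Riesz vector of the evaluation at `x`, `0 < s ≤ 1` -/
noncomputable def kk0 (S : ℝ → HH m →L[ℝ] HH m) (s : ℝ) (x : X) : HH m :=
  if h : ∃ k : HH m, ∀ f ∈ BD m, ⟪k, f⟫_ℝ = crep S s f x then h.choose else 0

theorem HS.kk0_inner (h : HS m S C) (hs : 0 < s) (hs1 : s ≤ 1) (x : X) {f : HH m}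
    (hf : f ∈ BD m) : ⟪kk0 S s x, f⟫_ℝ = crep S s f x := by
  have hex := h.exists_k hs hs1 x
  unfold kk0
  rw [dif_pos hex]
  exact hex.choose_spec f hf

theorem HS.kk0_norm (h : HS m S C) (hs : 0 < s) (hs1 : s ≤ 1) (x : X) :
    ‖kk0 S s x‖ ≤ K1 C / √(vol m s x) := by
  refine norm_le_of_BD (div_nonneg (K1_pos C).le (Real.sqrt_nonneg _)) fun f hf => ?_
  rw [h.kk0_inner hs hs1 x hf]
  exact (h.bound hs hs1 (x₀ := x) hf).1 x (by rw [dist_self]; positivity)

theorem HS.kk0_sub (h : HS m S C) (hs : 0 < s) (hs1 : s ≤ 1) {x y : X} (hxy : dist x y ≤ √s) :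
    ‖kk0 S s x - kk0 S s y‖ ≤ 2 * K2 C / √(vol m s x) * (√(C / s) * dist x y) := by
  have h2 := K2_pos C
  refine norm_le_of_BD (by positivity) fun f hf => ?_
  rw [inner_sub_left, h.kk0_inner hs hs1 x hf, h.kk0_inner hs hs1 y hf]
  exact (h.bound hs hs1 (x₀ := x) hf).2 x y (by rw [dist_self]; positivity)
    (by rwa [dist_comm])

theorem HS.kk0_cont (h : HS m S C) (hs : 0 < s) (hs1 : s ≤ 1) :
    Continuous fun x : X => kk0 S s x := by
  rw [continuous_iff_continuousAt]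
  intro x
  rw [ContinuousAt, tendsto_iff_norm_sub_tendsto_zero]
  have hr : 0 < √s := Real.sqrt_pos.2 hs
  have h1 : ∀ᶠ y in 𝓝 x, ‖kk0 S s y - kk0 S s x‖
      ≤ 2 * K2 C / √(vol m s x) * (√(C / s) * dist x y) := by
    filter_upwards [Metric.ball_mem_nhds x hr] with y hy
    rw [norm_sub_rev]
    rw [Metric.mem_ball, dist_comm] at hy
    exact h.kk0_sub hs hs1 hy.le
  have h2 : Tendsto (fun y => 2 * K2 C / √(vol m s x) * (√(C / s) * dist x y)) (𝓝 x) (𝓝 0) := by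
    have : Tendsto (fun y => 2 * K2 C / √(vol m s x) * (√(C / s) * dist x y)) (𝓝 x)
        (𝓝 (2 * K2 C / √(vol m s x) * (√(C / s) * dist x x))) := by
      have hc : Continuous fun y : X => 2 * K2 C / √(vol m s x) * (√(C / s) * dist x y) := by
        fun_prop
      exact hc.tendsto x
    rwa [dist_self, mul_zero, mul_zero] at this
  exact squeeze_zero' (Eventually.of_forall fun y => norm_nonneg _) h1 h2

/-- `⟨k_{x,s}, f⟩` is a continuous representative, for all `f ∈ L²` -/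
theorem HS.kk0_rep (h : HS m S C) (hs : 0 < s) (hs1 : s ≤ 1) (f : HH m) :
    S s f =ᵐ[m] fun x => ⟪kk0 S s x, f⟫_ℝ := by
  -- bounded approximations
  have hd : f ∈ closure (BD m : Set (HH m)) := BD_dense m f
  obtain ⟨g, hg, hlim⟩ := mem_closure_iff_seq_limit.1 hd
  have h1 : Tendsto (fun j => S s (g j)) atTop (𝓝 (S s f)) :=
    ((S s).continuous.tendsto f).comp hlim
  obtain ⟨φ, hφ, hae⟩ := (tendstoInMeasure_of_tendsto_Lp h1).exists_seq_tendsto_ae
  have h2 : ∀ᵐ x ∂m, ∀ j, S s (g j) x = ⟪kk0 S s x, g j⟫_ℝ := by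
    rw [ae_all_iff]
    intro j
    filter_upwards [(h.crep_spec hs hs1 (hg j)).2] with x hx
    rw [hx, h.kk0_inner hs hs1 x (hg j)]
  filter_upwards [hae, h2] with x hx1 hx2
  have h3 : Tendsto (fun j => ⟪kk0 S s x, g (φ j)⟫_ℝ) atTop (𝓝 ⟪kk0 S s x, f⟫_ℝ) := by
    have hc : Continuous fun f : HH m => ⟪kk0 S s x, f⟫_ℝ := by fun_prop
    exact (hc.tendsto f).comp (hlim.comp hφ.tendsto_atTop)
  refine tendsto_nhds_unique hx1 (h3.congr fun j => ?_)
  rw [hx2]

/-- Riesz vector of the evaluation at `x`, all times `> 0` -/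
noncomputable def kk (S : ℝ → HH m →L[ℝ] HH m) (s : ℝ) (x : X) : HH m :=
  if s ≤ 1 then kk0 S s x else S (s - 1) (kk0 S 1 x)

theorem HS.kk_cont (h : HS m S C) (hs : 0 < s) : Continuous fun x : X => kk S s x := by
  unfold kk
  split_ifs with h1
  · exact h.kk0_cont hs h1
  · exact (S (s - 1)).continuous.comp (h.kk0_cont one_pos le_rfl)

theorem HS.kk_rep (h : HS m S C) (hs : 0 < s) (f : HH m) :
    S s f =ᵐ[m] fun x => ⟪kk S s x, f⟫_ℝ := by
  unfold kk
  split_ifs with h1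
  · exact h.kk0_rep hs h1 f
  · have h2 := h.kk0_rep one_pos le_rfl (S (s - 1) f)
    have e : S s f = S 1 (S (s - 1) f) := by
      rw [← h.semi 1 (s - 1) zero_le_one (by linarith) f]
      congr 1
      congr 1
      ring
    rw [e]
    filter_upwards [h2] with x hx
    rw [hx, h.symm (s - 1) (by linarith)]

theorem HS.kk_inner_cont (h : HS m S C) (hs : 0 < s) (f : HH m) :
    Continuous fun x : X => ⟪kk S s x, f⟫_ℝ := (h.kk_cont hs).inner continuous_const

/-- uniqueness of the representative -/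
theorem HS.kk_unique (h : HS m S C) (hs : 0 < s) {f : HH m} {u : X → ℝ} (hu : Continuous u)
    (hf : S s f =ᵐ[m] u) (x : X) : ⟪kk S s x, f⟫_ℝ = u x := by
  have := h.full
  have h1 := (Continuous.ae_eq_iff_eq (μ := m) (h.kk_inner_cont hs f) hu).1
    ((h.kk_rep hs f).symm.trans hf)
  exact congrFun h1 x

theorem HS.kk_semi (h : HS m S C) (hs : 0 < s) {t : ℝ} (ht : 0 ≤ t) (x : X) :
    S t (kk S s x) = kk S (s + t) x := by
  refine ext_inner_right ℝ fun f => ?_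
  rw [h.symm t ht]
  refine h.kk_unique hs (h.kk_inner_cont (s := s + t) (by linarith) f) ?_ x
  rw [← h.semi s t hs.le ht f]
  exact h.kk_rep (by linarith) f

theorem HS.kk_inner_nonneg (h : HS m S C) (hs : 0 < s) (x : X) {f : HH m} (hf : 0 ≤ f) :
    0 ≤ ⟪kk S s x, f⟫_ℝ := by
  have := h.full
  have h1 := h.pos s hs.le f hf
  rw [← Lp.coeFn_nonneg] at h1
  have h2 : (fun _ : X => (0 : ℝ)) ≤ᵐ[m] fun x => ⟪kk S s x, f⟫_ℝ := by
    filter_upwards [h1, h.kk_rep hs f] with y h3 h4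
    rw [← h4]; exact h3
  -- a continuous function that is `≥ 0` a.e. is `≥ 0`
  by_contra hneg
  push Not at hneg
  have hopen : IsOpen {y : X | ⟪kk S s y, f⟫_ℝ < 0} :=
    isOpen_lt (h.kk_inner_cont hs f) continuous_const
  have hpos := hopen.measure_pos m ⟨x, hneg⟩
  have hz : m {y : X | ⟪kk S s y, f⟫_ℝ < 0} = 0 := by
    have h5 : ∀ᵐ y ∂m, ¬ ⟪kk S s y, f⟫_ℝ < 0 := by
      filter_upwards [h2] with y hy
      exact not_lt.2 hy
    rw [ae_iff] at h5
    simpa only [not_not] using h5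
  exact hpos.ne' hz

theorem HS.kk_nonneg (h : HS m S C) (hs : 0 < s) (x : X) : 0 ≤ kk S s x :=
  nonneg_of_inner fun _ hf => h.kk_inner_nonneg hs x hf

/-! ### The kernel -/

/-- the heat kernel -/
noncomputable def pk (S : ℝ → HH m →L[ℝ] HH m) (s : ℝ) (x z : X) : ℝ :=
  ⟪kk S (s / 2) x, kk S (s / 2) z⟫_ℝ

theorem HS.pk_cont (h : HS m S C) (hs : 0 < s) : Continuous fun z : X × X => pk S s z.1 z.2 := by
  unfold pk
  have h1 := h.kk_cont (s := s / 2) (by linarith)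
  exact (h1.comp continuous_fst).inner (h1.comp continuous_snd)

theorem HS.pk_nonneg (h : HS m S C) (hs : 0 < s) (x z : X) : 0 ≤ pk S s x z :=
  inner_nonneg_of (h.kk_nonneg (by linarith) x) (h.kk_nonneg (by linarith) z)

theorem pk_symm (s : ℝ) (x z : X) : pk S s x z = pk S s z x := real_inner_comm _ _

/-- `⟨k_{x,s}, k_{z,t}⟩ = p_{s+t}(x,z)` -/
theorem HS.kk_inner (h : HS m S C) (hs : 0 < s) {t : ℝ} (ht : 0 < t) (x z : X) :
    ⟪kk S s x, kk S t z⟫_ℝ = pk S (s + t) x z := by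
  unfold pk
  rcases le_total s t with hst | hst
  · have e1 : (s + t) / 2 = s + (t - s) / 2 := by ring
    have e2 : t = (s + t) / 2 + (t - s) / 2 := by ring
    have h1 := h.kk_semi hs (t := (t - s) / 2) (by linarith) x
    have h2 := h.kk_semi (s := (s + t) / 2) (by linarith) (t := (t - s) / 2) (by linarith) z
    rw [← e1] at h1
    rw [← e2] at h2
    rw [← h1, ← h2, h.symm _ (by linarith)]
  · have e1 : (s + t) / 2 = t + (s - t) / 2 := by ring
    have e2 : s = (s + t) / 2 + (s - t) / 2 := by ring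
    have h1 := h.kk_semi ht (t := (s - t) / 2) (by linarith) z
    have h2 := h.kk_semi (s := (s + t) / 2) (by linarith) (t := (s - t) / 2) (by linarith) x
    rw [← e1] at h1
    rw [← e2] at h2
    rw [← h1, ← h2, h.symm _ (by linarith)]

/-- `p_s(x,·) = k_{x,s}` almost everywhere -/
theorem HS.pk_ae (h : HS m S C) (hs : 0 < s) (x : X) : kk S s x =ᵐ[m] pk S s x := by
  have h1 := h.kk_semi (s := s / 2) (by linarith) (t := s / 2) (by linarith) x
  have h2 := h.kk_rep (s := s / 2) (by linarith) (kk S (s / 2) x)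
  rw [h1, show s / 2 + s / 2 = s by ring] at h2
  filter_upwards [h2] with z hz
  rw [hz, pk, real_inner_comm]

theorem HS.pk_mem2 (h : HS m S C) (hs : 0 < s) (x : X) : MemLp (pk S s x) 2 m :=
  (Lp.memLp (kk S s x)).ae_eq (h.pk_ae hs x)

/-- pairing of the kernel with a function of `L²` -/
theorem HS.pk_pair (h : HS m S C) (hs : 0 < s) (x : X) (f : HH m) :
    ∫ z, pk S s x z * f z ∂m = ⟪kk S s x, f⟫_ℝ := by
  rw [inner_eq]
  refine integral_congr_ae ?_
  filter_upwards [h.pk_ae hs x] with z hz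
  rw [hz]

theorem HS.pk_pair' (h : HS m S C) (hs : 0 < s) (x : X) {f : X → ℝ} (hf : MemLp f 2 m) :
    ∫ z, pk S s x z * f z ∂m = ⟪kk S s x, hf.toLp f⟫_ℝ := by
  rw [← h.pk_pair hs]
  refine integral_congr_ae ?_
  filter_upwards [hf.coeFn_toLp] with z hz
  rw [hz]

theorem HS.pk_semi (h : HS m S C) (hs : 0 < s) {t : ℝ} (ht : 0 < t) (x z : X) :
    pk S (s + t) x z = ∫ w, pk S s x w * pk S t w z ∂m := by
  rw [← h.kk_inner hs ht, ← h.pk_pair hs]
  refine integral_congr_ae ?_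
  filter_upwards [h.pk_ae ht z] with w hw
  rw [hw, pk_symm t w z]

end

end Vale.Agent.P242.H992
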