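import Vale.Agent.P242.H992.KerD
import Mathlib.MeasureTheory.Integral.IntegralEqImproper

/-! P242, F-KER half (2) (helper992): mass one, and the bounds for bounded functions. -/

set_option linter.all false

open MeasureTheory Filter Topology Set
open scoped ENNReal NNReal InnerProductSpace

universe u

namespace Vale.Agent.P242.H992

variable {X : Type u} [MetricSpace X] [MeasurableSpace X] {m : Measure X} [BorelSpace X]
  {S : ℝ → HH m →L[ℝ] HH m} {C : ℝ} {s : ℝ}

/-- the indicator of a ball in `L²` -/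
noncomputable def ib (h : ∀ (x : X) (r : ℝ), m (Metric.ball x r) < ∞) (o : X) (j : ℕ) : HH m :=
  indicatorConstLp 2 (Metric.isOpen_ball (x := o) (ε := (j : ℝ))).measurableSet (h o j).ne (1 : ℝ)

theorem ib_ae (h : ∀ (x : X) (r : ℝ), m (Metric.ball x r) < ∞) (o : X) (j : ℕ) :
    ib h o j =ᵐ[m] (Metric.ball o (j : ℝ)).indicator fun _ => (1 : ℝ) :=
  indicatorConstLp_coeFn

theorem ib_nonneg (h : ∀ (x : X) (r : ℝ), m (Metric.ball x r) < ∞) (o : X) (j : ℕ) :
    0 ≤ ib h o j := by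
  rw [← Lp.coeFn_nonneg]
  filter_upwards [ib_ae h o j] with x hx
  rw [hx, Pi.zero_apply]
  exact Set.indicator_nonneg (fun _ _ => zero_le_one) x

theorem ib_le (h : ∀ (x : X) (r : ℝ), m (Metric.ball x r) < ∞) (o : X) (j : ℕ) :
    ∀ᵐ x ∂m, ib h o j x ≤ 1 := by
  filter_upwards [ib_ae h o j] with x hx
  rw [hx]
  exact Set.indicator_le_self' (fun _ _ => zero_le_one) x |>.trans le_rfl

theorem inner_ib (h : ∀ (x : X) (r : ℝ), m (Metric.ball x r) < ∞) (o : X) (j : ℕ) (g : HH m) :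
    ⟪g, ib h o j⟫_ℝ = ∫ x in Metric.ball o (j : ℝ), g x ∂m := by
  rw [inner_eq, ← integral_indicator Metric.isOpen_ball.measurableSet]
  refine integral_congr_ae ?_
  filter_upwards [ib_ae h o j] with x hx
  rw [hx]
  by_cases hxb : x ∈ Metric.ball o (j : ℝ)
  · rw [Set.indicator_of_mem hxb, Set.indicator_of_mem hxb, mul_one]
  · rw [Set.indicator_of_notMem hxb, Set.indicator_of_notMem hxb, mul_zero]

/-- Hamilton's estimate for `⟨k_{x,s}, f⟩`, `s ≤ 1` -/
theorem HS.inner_ham (h : HS m S C) (hs : 0 < s) (hs1 : s ≤ 1) {A : ℝ} (hA : 0 < A) {f : HH m}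
    (h0 : 0 ≤ f) (hf : ∀ᵐ x ∂m, f x ≤ A) :
    (∀ x, 0 ≤ ⟪kk S s x, f⟫_ℝ ∧ ⟪kk S s x, f⟫_ℝ ≤ A) ∧ ∀ x y, 0 < ⟪kk S s x, f⟫_ℝ →
      0 < ⟪kk S s y, f⟫_ℝ ∧
      |ww0 A ⟪kk S s x, f⟫_ℝ - ww0 A ⟪kk S s y, f⟫_ℝ| ≤ √(C / s) * dist x y := by
  obtain ⟨u, hu, hu1, hu2, hu3⟩ := h.ham s hs hs1 A hA f h0 hf
  have e : ∀ x, ⟪kk S s x, f⟫_ℝ = u x := fun x => h.kk_unique hs hu hu2 x
  simp only [e]
  exact ⟨hu1, hu3⟩

/-- for functions between `0` and `1`: Lipschitz bound, all times -/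
theorem HS.inner_lip (h : HS m S C) (hs : 0 < s) {f : HH m} (h0 : 0 ≤ f)
    (hf : ∀ᵐ x ∂m, f x ≤ 1) :
    (∀ x, 0 ≤ ⟪kk S s x, f⟫_ℝ ∧ ⟪kk S s x, f⟫_ℝ ≤ 1) ∧ ∀ x y,
      |⟪kk S s x, f⟫_ℝ - ⟪kk S s y, f⟫_ℝ| ≤ 3 * √(C / min s 1) * dist x y := by
  have key : ∀ (t : ℝ) (g : HH m), 0 < t → t ≤ 1 → 0 ≤ g → (∀ᵐ x ∂m, g x ≤ 1) →
      (∀ x, 0 ≤ ⟪kk S t x, g⟫_ℝ ∧ ⟪kk S t x, g⟫_ℝ ≤ 1) ∧ ∀ x y,
      |⟪kk S t x, g⟫_ℝ - ⟪kk S t y, g⟫_ℝ| ≤ 3 * √(C / t) * dist x y := by
    intro t g ht ht1 hg hg1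
    obtain ⟨hb, hw⟩ := h.inner_ham ht ht1 one_pos hg hg1
    refine ⟨hb, fun x y => ?_⟩
    have hD0 : 0 ≤ √(C / t) * dist x y := by positivity
    have h2 := gra_of (η := 1) (D := √(C / t) * dist x y) one_pos one_pos le_rfl (hb x).1 (hb x).2
      (hb y).1 (hb y).2 (hw x y) (fun h => by
        have := hw y x h
        rw [dist_comm y x] at this
        exact this) hD0
    rw [sub_self, Real.rpow_zero, Real.one_rpow, mul_one, mul_one, mul_one] at h2
    rw [mul_assoc]
    refine h2.trans (mul_le_mul_of_nonneg_right ?_ hD0)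
    have h3 : 1 ≤ √(2 : ℝ) := Real.one_le_sqrt.2 (by norm_num)
    have h4 : 2 / √(2 : ℝ) ≤ 2 := by
      rw [div_le_iff₀ (by positivity)]
      linarith
    linarith
  rcases le_total s 1 with hs1 | hs1
  · rw [min_eq_left hs1]
    exact key s f hs hs1 h0 hf
  · rw [min_eq_right hs1]
    have e : ∀ x, ⟪kk S s x, f⟫_ℝ = ⟪kk S 1 x, S (s - 1) f⟫_ℝ := by
      intro x
      have := h.kk_semi one_pos (t := s - 1) (by linarith) x
      rw [show (1 : ℝ) + (s - 1) = s by ring] at this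
      rw [← this, h.symm _ (by linarith)]
    simp only [e]
    exact key 1 _ one_pos le_rfl (h.pos _ (by linarith) f h0)
      (h.le _ (by linarith) f 1 zero_le_one hf)

theorem HS.pk_meas (h : HS m S C) (hs : 0 < s) (x : X) : Continuous (pk S s x) := by
  have := h.pk_cont hs
  exact this.comp (continuous_const.prodMk continuous_id)

theorem HS.pk_ball (h : HS m S C) (hs : 0 < s) (x o : X) (j : ℕ) :
    ∫ z in Metric.ball o (j : ℝ), pk S s x z ∂m = ⟪kk S s x, ib h.fin o j⟫_ℝ := by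
  rw [inner_ib]
  refine setIntegral_congr_ae Metric.isOpen_ball.measurableSet ?_
  filter_upwards [h.pk_ae hs x] with z hz _
  rw [hz]

theorem cover (o : X) (m : Measure X) :
    AECover m atTop (fun j : ℕ => Metric.ball o (j : ℝ)) :=
  aecover_ball tendsto_natCast_atTop_atTop

theorem HS.pk_int (h : HS m S C) (hs : 0 < s) (x : X) : Integrable (pk S s x) m := by
  refine (cover x m).integrable_of_integral_bounded_of_nonneg_ae 1 (fun j => ?_)
    (Eventually.of_forall fun z => h.pk_nonneg hs x z) (Eventually.of_forall fun j => ?_)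
  · have : IsFiniteMeasure (m.restrict (Metric.ball x (j : ℝ))) :=
      ⟨by rw [Measure.restrict_apply_univ]; exact h.fin x j⟩
    exact ((h.pk_mem2 hs x).restrict _).integrable (by norm_num)
  · rw [h.pk_ball hs]
    exact ((h.inner_lip hs (ib_nonneg h.fin x j) (ib_le h.fin x j)).1 x).2

theorem HS.pk_lim (h : HS m S C) (hs : 0 < s) (x o : X) :
    Tendsto (fun j : ℕ => ⟪kk S s x, ib h.fin o j⟫_ℝ) atTop (𝓝 (∫ z, pk S s x z ∂m)) := by
  have h1 := (cover o m).integral_tendsto_of_countably_generated (h.pk_int hs x)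
  refine h1.congr fun j => ?_
  rw [h.pk_ball hs]

theorem HS.pk_mass (h : HS m S C) (hs : 0 < s) (x : X) : ∫ z, pk S s x z ∂m = 1 := by
  have hfull := h.full
  set V : X → ℝ := fun x => ∫ z, pk S s x z ∂m with hV
  set o : X := x with ho
  have hlim : ∀ y, Tendsto (fun j : ℕ => ⟪kk S s y, ib h.fin o j⟫_ℝ) atTop (𝓝 (V y)) :=
    fun y => h.pk_lim hs y o
  have hb := fun j => h.inner_lip hs (ib_nonneg h.fin o j) (ib_le h.fin o j)
  have hV1 : ∀ y, V y ≤ 1 := fun y => le_of_tendsto (hlim y) (Eventually.of_forall fun j =>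
    ((hb j).1 y).2)
  have hV0 : ∀ y, 0 ≤ V y := fun y => integral_nonneg fun z => h.pk_nonneg hs y z
  have hVle : ∀ y j, ⟪kk S s y, ib h.fin o j⟫_ℝ ≤ V y := by
    intro y j
    rw [← h.pk_ball hs]
    exact setIntegral_le_integral (h.pk_int hs y) (Eventually.of_forall fun z => h.pk_nonneg hs y z)
  have hVlip : ∀ y z, |V y - V z| ≤ 3 * √(C / min s 1) * dist y z := by
    intro y z
    have h1 : Tendsto (fun j : ℕ => |⟪kk S s y, ib h.fin o j⟫_ℝ - ⟪kk S s z, ib h.fin o j⟫_ℝ|)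
        atTop (𝓝 |V y - V z|) := ((hlim y).sub (hlim z)).abs
    exact le_of_tendsto h1 (Eventually.of_forall fun j => (hb j).2 y z)
  have hVc : Continuous V := by
    refine (LipschitzWith.of_dist_le_mul (K := Real.toNNReal (3 * √(C / min s 1)))
      fun y z => ?_).continuous
    rw [Real.coe_toNNReal _ (by positivity), Real.dist_eq]
    exact hVlip y z
  -- `∫_{B_i} v_j → m(B_i)`
  have key : ∀ i : ℕ, ∀ᵐ y ∂m, y ∈ Metric.ball o (i : ℝ) → V y = 1 := by
    intro i
    have hfi : IsFiniteMeasure (m.restrict (Metric.ball o (i : ℝ))) :=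
      ⟨by rw [Measure.restrict_apply_univ]; exact h.fin o i⟩
    have hib : Integrable (ib h.fin o i) m := by
      refine (integrable_indicator_iff Metric.isOpen_ball.measurableSet |>.2
        (integrableOn_const (C := (1 : ℝ)) (h.fin o i).ne)).congr (ib_ae h.fin o i).symm
    obtain ⟨hm1, hm2⟩ := h.mass s hs.le _ (ib_nonneg h.fin o i) hib
    have h1 : Tendsto (fun j : ℕ => ∫ y in Metric.ball o (j : ℝ), S s (ib h.fin o i) y ∂m) atTop
        (𝓝 (∫ y, S s (ib h.fin o i) y ∂m)) :=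
      (cover o m).integral_tendsto_of_countably_generated hm1
    have h2 : ∫ y, S s (ib h.fin o i) y ∂m = ∫ y in Metric.ball o (i : ℝ), (1 : ℝ) ∂m := by
      rw [hm2, integral_congr_ae (ib_ae h.fin o i),
        integral_indicator Metric.isOpen_ball.measurableSet]
    have h3 : ∀ j : ℕ, ∫ y in Metric.ball o (j : ℝ), S s (ib h.fin o i) y ∂m
        ≤ ∫ y in Metric.ball o (i : ℝ), V y ∂m := by
      intro j
      rw [← inner_ib h.fin, h.symm s hs.le, real_inner_comm, inner_ib]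
      have hint : IntegrableOn V (Metric.ball o (i : ℝ)) m := by
        refine Integrable.of_bound (C := 1) hVc.aestronglyMeasurable (Eventually.of_forall fun y => ?_)
        rw [Real.norm_eq_abs, abs_of_nonneg (hV0 y)]
        exact hV1 y
      refine setIntegral_mono_ae ?_ hint ?_
      · exact ((Lp.memLp (S s (ib h.fin o j))).restrict _).integrable (by norm_num)
      · filter_upwards [h.kk_rep hs (ib h.fin o j)] with y hy
        rw [hy]
        exact hVle y j
    have h4 : ∫ y in Metric.ball o (i : ℝ), (1 : ℝ) ∂m ≤ ∫ y in Metric.ball o (i : ℝ), V y ∂m := by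
      rw [← h2]
      exact le_of_tendsto h1 (Eventually.of_forall h3)
    have hint : IntegrableOn V (Metric.ball o (i : ℝ)) m := by
      refine Integrable.of_bound (C := 1) hVc.aestronglyMeasurable (Eventually.of_forall fun y => ?_)
      rw [Real.norm_eq_abs, abs_of_nonneg (hV0 y)]
      exact hV1 y
    have h5 : ∫ y in Metric.ball o (i : ℝ), (1 - V y) ∂m = 0 := by
      rw [integral_sub (integrable_const _) hint]
      refine le_antisymm (by linarith) ?_
      have : ∫ y in Metric.ball o (i : ℝ), V y ∂m ≤ ∫ y in Metric.ball o (i : ℝ), (1 : ℝ) ∂m :=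
        integral_mono hint (integrable_const _) hV1
      linarith
    have h6 : (fun y => 1 - V y) =ᵐ[m.restrict (Metric.ball o (i : ℝ))] 0 := by
      refine (integral_eq_zero_iff_of_nonneg (fun y => ?_) ?_).1 h5
      · show 0 ≤ 1 - V y
        linarith [hV1 y]
      · exact (integrable_const _).sub hint
    rw [Filter.EventuallyEq, ae_restrict_iff' Metric.isOpen_ball.measurableSet] at h6
    filter_upwards [h6] with y hy hyb
    have := hy hyb
    simp only [Pi.zero_apply] at this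
    linarith
  have hae : V =ᵐ[m] fun _ => (1 : ℝ) := by
    filter_upwards [ae_all_iff.2 key] with y hy
    obtain ⟨i, hi⟩ := exists_nat_gt (dist y o)
    exact hy i hi
  exact congrFun ((Continuous.ae_eq_iff_eq (μ := m) hVc continuous_const).1 hae) x

end Vale.Agent.P242.H992
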