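import Vale.Agent.P242.H992.KerE

/-! P242, F-KER half (2) (helper992): Harnack inequality and gradient estimate with loss for bounded
functions; the `L²` bounds. -/

set_option linter.all false

open MeasureTheory Filter Topology Set
open scoped ENNReal NNReal InnerProductSpace

universe u

namespace Vale.Agent.P242.H992

variable {X : Type u} [MetricSpace X] [MeasurableSpace X] {m : Measure X} [BorelSpace X]
  {S : ℝ → HH m →L[ℝ] HH m} {C : ℝ} {s : ℝ}

/-- bounded functions as limits of `⟨k_{x,s}, g_j⟩` -/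
theorem HS.exists_approx (h : HS m S C) (hs : 0 < s) {A : ℝ} (hA : 0 < A) {F : X → ℝ}
    (hF : AEStronglyMeasurable F m) (hF0 : ∀ᵐ z ∂m, 0 ≤ F z ∧ F z ≤ A) :
    ∃ g : ℕ → HH m, (∀ j, 0 ≤ g j) ∧ (∀ j, ∀ᵐ x ∂m, g j x ≤ A) ∧
      ∀ x, Tendsto (fun j => ⟪kk S s x, g j⟫_ℝ) atTop (𝓝 (∫ z, pk S s x z * F z ∂m)) := by
  rcases isEmpty_or_nonempty X with hX | ⟨⟨o⟩⟩
  · refine ⟨fun _ => 0, fun _ => le_rfl, fun j => ?_, fun x => hX.elim x⟩
    filter_upwards with x using hX.elim x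
  have hmem : ∀ j : ℕ, MemLp ((Metric.ball o (j : ℝ)).indicator F) 2 m := by
    intro j
    rw [memLp_indicator_iff_restrict Metric.isOpen_ball.measurableSet]
    have : IsFiniteMeasure (m.restrict (Metric.ball o (j : ℝ))) :=
      ⟨by rw [Measure.restrict_apply_univ]; exact h.fin o j⟩
    refine MemLp.of_bound hF.restrict A ?_
    filter_upwards [ae_restrict_of_ae hF0] with z hz
    rw [Real.norm_eq_abs, abs_of_nonneg hz.1]
    exact hz.2
  refine ⟨fun j => (hmem j).toLp _, fun j => ?_, fun j => ?_, fun x => ?_⟩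
  · rw [← Lp.coeFn_nonneg]
    filter_upwards [(hmem j).coeFn_toLp, hF0] with z h1 h2
    rw [h1, Pi.zero_apply]
    by_cases hz : z ∈ Metric.ball o (j : ℝ)
    · rw [Set.indicator_of_mem hz]; exact h2.1
    · rw [Set.indicator_of_notMem hz]
  · filter_upwards [(hmem j).coeFn_toLp, hF0] with z h1 h2
    rw [h1]
    by_cases hz : z ∈ Metric.ball o (j : ℝ)
    · rw [Set.indicator_of_mem hz]; exact h2.2
    · rw [Set.indicator_of_notMem hz]; exact hA.le
  · have hint : Integrable (fun z => pk S s x z * F z) m := by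
      have := (h.pk_int hs x).bdd_mul (c := A) hF (by
        filter_upwards [hF0] with z hz
        rw [Real.norm_eq_abs, abs_of_nonneg hz.1]
        exact hz.2)
      exact this.congr (Eventually.of_forall fun z => mul_comm _ _)
    have h1 := (cover o m).integral_tendsto_of_countably_generated hint
    refine h1.congr fun j => ?_
    rw [← h.pk_pair' hs x (hmem j), ← integral_indicator Metric.isOpen_ball.measurableSet]
    refine integral_congr_ae (Eventually.of_forall fun z => ?_)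
    simp only
    by_cases hz : z ∈ Metric.ball o (j : ℝ)
    · rw [Set.indicator_of_mem hz, Set.indicator_of_mem hz]
    · rw [Set.indicator_of_notMem hz, Set.indicator_of_notMem hz, mul_zero]

theorem HS.bdd_har (h : HS m S C) (hs : 0 < s) (hs1 : s ≤ 1) {δ : ℝ} (hδ : 0 < δ) {A : ℝ}
    (hA : 0 < A) {F : X → ℝ}
    (hF : AEStronglyMeasurable F m) (hF0 : ∀ᵐ z ∂m, 0 ≤ F z ∧ F z ≤ A) (x y : X) :
    (∫ z, pk S s x z * F z ∂m) ^ (1 + δ) ≤ A ^ δ * (∫ z, pk S s y z * F z ∂m)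
      * Real.exp ((1 + 1 / δ) * C * dist x y ^ 2 / s) := by
  have hC := h.C_pos
  obtain ⟨g, g0, g1, glim⟩ := h.exists_approx hs hA hF hF0
  have key : ∀ j, ⟪kk S s x, g j⟫_ℝ ^ (1 + δ) ≤ A ^ δ * ⟪kk S s y, g j⟫_ℝ
      * Real.exp ((1 + 1 / δ) * C * dist x y ^ 2 / s) := by
    intro j
    obtain ⟨hb, hw⟩ := h.inner_ham hs hs1 hA (g0 j) (g1 j)
    have h1 := har_of (δ := δ) (D := √(C / s) * dist x y) hA hδ (hb x).1 (hb x).2 (hb y).1 (hb y).2
      (hw x y)
    have e : (1 + 1 / δ) * (√(C / s) * dist x y) ^ 2 = (1 + 1 / δ) * C * dist x y ^ 2 / s := by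
      rw [mul_pow, Real.sq_sqrt (by positivity)]
      ring
    rw [e] at h1
    exact h1
  have l1 : Tendsto (fun j => ⟪kk S s x, g j⟫_ℝ ^ (1 + δ)) atTop
      (𝓝 ((∫ z, pk S s x z * F z ∂m) ^ (1 + δ))) :=
    (Real.continuousAt_rpow_const _ _ (Or.inr (by positivity))).tendsto.comp (glim x)
  have l2 : Tendsto (fun j => A ^ δ * ⟪kk S s y, g j⟫_ℝ
      * Real.exp ((1 + 1 / δ) * C * dist x y ^ 2 / s)) atTop
      (𝓝 (A ^ δ * (∫ z, pk S s y z * F z ∂m)
        * Real.exp ((1 + 1 / δ) * C * dist x y ^ 2 / s))) :=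
    ((glim y).const_mul _).mul_const _
  exact le_of_tendsto_of_tendsto l1 l2 (Eventually.of_forall key)

theorem HS.bdd_gra (h : HS m S C) (hs : 0 < s) (hs1 : s ≤ 1) {η : ℝ} (hη : 0 < η) (hη1 : η ≤ 1)
    {A : ℝ} (hA : 0 < A) {F : X → ℝ}
    (hF : AEStronglyMeasurable F m) (hF0 : ∀ᵐ z ∂m, 0 ≤ F z ∧ F z ≤ A) (x y : X) :
    |(∫ z, pk S s x z * F z ∂m) - ∫ z, pk S s y z * F z ∂m|
      ≤ (1 + 2 / √(2 * η)) * √C * A ^ η
        * (max (∫ z, pk S s x z * F z ∂m) (∫ z, pk S s y z * F z ∂m)) ^ (1 - η)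
        * (dist x y / √s) := by
  have hC := h.C_pos
  obtain ⟨g, g0, g1, glim⟩ := h.exists_approx hs hA hF hF0
  have key : ∀ j, |⟪kk S s x, g j⟫_ℝ - ⟪kk S s y, g j⟫_ℝ|
      ≤ (1 + 2 / √(2 * η)) * √C * A ^ η
        * (max ⟪kk S s x, g j⟫_ℝ ⟪kk S s y, g j⟫_ℝ) ^ (1 - η) * (dist x y / √s) := by
    intro j
    obtain ⟨hb, hw⟩ := h.inner_ham hs hs1 hA (g0 j) (g1 j)
    have h1 := gra_of (η := η) (D := √(C / s) * dist x y) hA hη hη1 (hb x).1 (hb x).2 (hb y).1
      (hb y).2 (hw x y) (fun h => by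
        have := hw y x h
        rw [dist_comm y x] at this
        exact this) (by positivity)
    refine h1.trans (le_of_eq ?_)
    rw [Real.sqrt_div hC.le]
    ring
  have l1 : Tendsto (fun j => |⟪kk S s x, g j⟫_ℝ - ⟪kk S s y, g j⟫_ℝ|) atTop
      (𝓝 |(∫ z, pk S s x z * F z ∂m) - ∫ z, pk S s y z * F z ∂m|) :=
    ((glim x).sub (glim y)).abs
  have l3 : Tendsto (fun j => (max ⟪kk S s x, g j⟫_ℝ ⟪kk S s y, g j⟫_ℝ) ^ (1 - η)) atTop
      (𝓝 ((max (∫ z, pk S s x z * F z ∂m) (∫ z, pk S s y z * F z ∂m)) ^ (1 - η))) :=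
    (Real.continuousAt_rpow_const _ _ (Or.inr (by linarith))).tendsto.comp
      ((glim x).max (glim y))
  have l2 := (l3.const_mul ((1 + 2 / √(2 * η)) * √C * A ^ η)).mul_const (dist x y / √s)
  exact le_of_tendsto_of_tendsto l1 l2 (Eventually.of_forall key)

theorem norm_sq_eq (f : HH m) : ‖f‖ ^ 2 = ∫ x, f x ^ 2 ∂m := by
  rw [← real_inner_self_eq_norm_sq, inner_eq]
  refine integral_congr_ae (Eventually.of_forall fun x => ?_)
  simp only
  ring

theorem HS.pk_l2 (h : HS m S C) (hs : 0 < s) (hs1 : s ≤ 1) (x : X) :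
    ∫ z, pk S s x z ^ 2 ∂m ≤ K1 C ^ 2 / (m (Metric.ball x (√s))).toReal := by
  have hV := h.vol_pos hs x
  have h1 : ∫ z, pk S s x z ^ 2 ∂m = ‖kk S s x‖ ^ 2 := by
    rw [norm_sq_eq]
    refine integral_congr_ae ?_
    filter_upwards [h.pk_ae hs x] with z hz
    rw [hz]
  have h2 : ‖kk S s x‖ ≤ K1 C / √(vol m s x) := by
    have := h.kk0_norm hs hs1 x
    rw [kk, if_pos hs1]
    exact this
  rw [h1]
  refine (pow_le_pow_left₀ (norm_nonneg _) h2 2).trans (le_of_eq ?_)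
  rw [div_pow, Real.sq_sqrt hV.le]
  rfl

theorem HS.pk_lip2 (h : HS m S C) (hs : 0 < s) (hs1 : s ≤ 1) {x y : X} (hxy : dist x y ≤ √s) :
    ∫ z, (pk S s x z - pk S s y z) ^ 2 ∂m
      ≤ 4 * K2 C ^ 2 * C * (dist x y / √s) ^ 2 / (m (Metric.ball x (√s))).toReal := by
  have hV := h.vol_pos hs x
  have hC := h.C_pos
  have h1 : ∫ z, (pk S s x z - pk S s y z) ^ 2 ∂m = ‖kk S s x - kk S s y‖ ^ 2 := by
    rw [norm_sq_eq]
    refine integral_congr_ae ?_
    filter_upwards [h.pk_ae hs x, h.pk_ae hs y, Lp.coeFn_sub (kk S s x) (kk S s y)] with z a b c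
    rw [c, Pi.sub_apply, a, b]
  have h2 : ‖kk S s x - kk S s y‖ ≤ 2 * K2 C / √(vol m s x) * (√(C / s) * dist x y) := by
    have := h.kk0_sub hs hs1 hxy
    rw [kk, if_pos hs1, kk, if_pos hs1]
    exact this
  rw [h1]
  refine (pow_le_pow_left₀ (norm_nonneg _) h2 2).trans (le_of_eq ?_)
  have e : (m (Metric.ball x (√s))).toReal = vol m s x := rfl
  rw [e, mul_pow, mul_pow, div_pow, div_pow, mul_pow, Real.sq_sqrt hV.le,
    Real.sq_sqrt (by positivity), Real.sq_sqrt hs.le]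
  ring

end Vale.Agent.P242.H992
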